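import Crest.Agent.R46.Lift

set_option autoImplicit false
set_option linter.unusedSectionVars false

namespace Crest.Agent.R46

def TilS (F A : Set Z3) : Prop := ∀ x, ∃! c, c ∈ F ∧ x - c ∈ A

theorem TilS.uq {T A : Set Z3} (h : TilS T A) {a a' t t' : Z3} (ha : a ∈ A) (ha' : a' ∈ A)
    (ht : t ∈ T) (ht' : t' ∈ T) (e : a + t = a' + t') : a = a' := by
  have : t = t' := (h (a + t)).unique ⟨ht, by simpa using ha⟩ ⟨ht', by rw [e]; simpa using ha'⟩
  subst this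
  exact add_right_cancel e

structure Cell (J : Type) where
  num : J × Bool → ℤ
  O : ℤ
  inj : Function.Injective num
  h0 : ∀ k, 0 ≤ num k
  h1 : ∀ k, num k < O
  h2 : ∀ k, num k ^ 2 < O
  hO : 5 ≤ O

theorem exists_cell (J : Type) [Finite J] : Nonempty (Cell J) := by
  obtain ⟨n, ⟨e⟩⟩ := Finite.exists_equiv_fin (J × Bool)
  refine ⟨⟨fun k => ((e k : ℕ) : ℤ), n ^ 2 + n + 5, fun k k' h => e.injective (Fin.ext (by
    simpa using h)), fun k => by positivity, fun k => ?_, fun k => ?_, by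
      have : (0 : ℤ) ≤ n ^ 2 + n := by positivity
      omega⟩⟩
  · have : ((e k : ℕ) : ℤ) < n := by exact_mod_cast (e k).2
    nlinarith [sq_nonneg (n : ℤ)]
  · have : ((e k : ℕ) : ℤ) < n := by exact_mod_cast (e k).2
    have h0 : (0 : ℤ) ≤ ((e k : ℕ) : ℤ) := by positivity
    nlinarith

namespace Cell
variable {J : Type} (C : Cell J)

def N : ℤ := 3 * C.O
def sp (k : J × Bool) : Z3 := ![C.O + C.num k, 2, C.O + C.num k ^ 2]
def Box (r : Z3) : Prop := ∀ i, 0 ≤ r i ∧ r i < C.N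

theorem N_ge : 15 ≤ C.N := by have := C.hO; unfold N; omega

theorem sp_inj : Function.Injective C.sp := by
  intro k k' h
  apply C.inj
  simpa [sp] using congrFun h 0

theorem sp1 (k : J × Bool) : C.sp k 1 = 2 := rfl

theorem box_sp3 (k k' k'' : J × Bool) : C.Box (C.sp k + C.sp k'' - C.sp k') := by
  have := C.h0 k; have := C.h0 k'; have := C.h0 k''
  have := C.h1 k; have := C.h1 k'; have := C.h1 k''
  have := C.h2 k; have := C.h2 k'; have := C.h2 k''
  have := sq_nonneg (C.num k); have := sq_nonneg (C.num k'); have := sq_nonneg (C.num k'')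
  have := C.hO
  intro i
  fin_cases i <;> simp [sp, N] <;> omega

theorem box_sp (k : J × Bool) : C.Box (C.sp k) := by simpa using C.box_sp3 k k k

theorem sidon {k k' k'' k3 : J × Bool} (h : C.sp k + C.sp k'' - C.sp k' = C.sp k3)
    (hne : k'' ≠ k') : k = k' := by
  have e0 := congrFun h 0
  have e2 := congrFun h 2
  simp [sp] at e0 e2
  have hn : C.num k'' - C.num k' ≠ 0 := fun e => hne (C.inj (sub_eq_zero.1 e))
  apply C.inj
  have : (C.num k'' - C.num k') * (C.num k - C.num k') = 0 := by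
    have e3 : C.num k3 = C.num k + C.num k'' - C.num k' := by omega
    rw [e3] at e2
    nlinarith
  rcases mul_eq_zero.1 this with h | h
  · exact absurd h hn
  · exact sub_eq_zero.1 h

theorem box_unique {c c' r r' : Z3} (h : C.Box r) (h' : C.Box r') (e : C.N • c + r = C.N • c' + r') :
    c = c' ∧ r = r' := by
  have hN := C.N_ge
  have hc : c = c' := by
    funext i
    have e1 := congrFun e i
    simp only [Pi.add_apply, Pi.smul_apply, smul_eq_mul] at e1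
    obtain ⟨a1, a2⟩ := h i
    obtain ⟨b1, b2⟩ := h' i
    by_contra hne
    rcases lt_or_gt_of_ne hne with hl | hl
    · nlinarith
    · nlinarith
  subst hc
  exact ⟨rfl, add_left_cancel e⟩

theorem box_exists (x : Z3) : ∃ c r, C.Box r ∧ x = C.N • c + r := by
  have hN := C.N_ge
  refine ⟨fun i => x i / C.N, fun i => x i % C.N, fun i => ⟨Int.emod_nonneg _ (by omega),
    Int.emod_lt_of_pos _ (by omega)⟩, ?_⟩
  funext i
  simp [Int.mul_ediv_add_emod]

variable (F0 : Set Z3) (F : J → Set Z3)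

def Fl (r : Z3) : Set Z3 := {c | (∀ k, r ≠ C.sp k) ∧ c ∈ F0 ∨ ∃ k, r = C.sp k ∧ c ∈ F k.1}

def TT : Set Z3 := {t | ∃ c r, C.Box r ∧ c ∈ C.Fl F0 F r ∧ t = C.N • c + r}

theorem Fl_sp (k : J × Bool) : C.Fl F0 F (C.sp k) = F k.1 := by
  ext c
  simp only [Fl, Set.mem_ofPred_eq]
  constructor
  · rintro (⟨h, -⟩ | ⟨k', e, h⟩)
    · exact absurd rfl (h k)
    · rwa [C.sp_inj e]
  · exact fun h => Or.inr ⟨k, rfl, h⟩

theorem Fl_ns {r : Z3} (h : ∀ k, r ≠ C.sp k) : C.Fl F0 F r = F0 := by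
  ext c
  simp [Fl, h]

theorem mem_ns {c r : Z3} (hc : c ∈ F0) (hr : C.Box r) (h : r 1 ≠ 2) :
    C.N • c + r ∈ C.TT F0 F :=
  ⟨c, r, hr, Or.inl ⟨fun k e => h (by rw [e]; rfl), hc⟩, rfl⟩

theorem TT_finite [Finite J] (h0 : F0.Finite) (h : ∀ j, (F j).Finite) : (C.TT F0 F).Finite := by
  have hb : {r | C.Box r}.Finite :=
    (Set.finite_Icc (0 : Z3) (fun _ => C.N)).subset fun r hr => ⟨fun i => (hr i).1, fun i => (hr i).2.le⟩
  refine (((h0.union (Set.finite_iUnion h)).prod hb).image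
    (fun t : Z3 × Z3 => C.N • t.1 + t.2)).subset ?_
  rintro _ ⟨c, r, hr, hc, rfl⟩
  refine ⟨(c, r), ⟨?_, hr⟩, rfl⟩
  rcases hc with ⟨-, hc⟩ | ⟨k, -, hc⟩
  · exact Or.inl hc
  · exact Or.inr (Set.mem_iUnion.2 ⟨_, hc⟩)

theorem box_zero : C.Box 0 := fun i => by have := C.N_ge; simp; omega

theorem til_coset (v : Z3) (B : Set Z3) :
    TilS (C.TT F0 F) {a | ∃ b ∈ B, a = v + C.N • b} ↔ TilS F0 B ∧ ∀ j, TilS (F j) B := by
  have key : TilS (C.TT F0 F) {a | ∃ b ∈ B, a = v + C.N • b} ↔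
      ∀ r, C.Box r → TilS (C.Fl F0 F r) B := by
    have hm : ∀ x r t, C.Box r → (t ∈ C.TT F0 F ∧ v + (C.N • x + r) - t ∈ {a | ∃ b ∈ B, a = v + C.N • b}
        ↔ ∃ c, t = C.N • c + r ∧ c ∈ C.Fl F0 F r ∧ x - c ∈ B) := by
      intro x r t hr
      constructor
      · rintro ⟨⟨c, r', hr', hc, rfl⟩, b, hb, e⟩
        obtain ⟨e1, e2⟩ := C.box_unique (c := x) (c' := b + c) hr hr' (by
          rw [smul_add]; linear_combination (exp := 1) e)
        subst e1 e2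
        exact ⟨c, rfl, hc, by simpa using hb⟩
      · rintro ⟨c, rfl, hc, hb⟩
        exact ⟨⟨c, r, hr, hc, rfl⟩, x - c, hb, by rw [smul_sub]; abel⟩
    constructor
    · intro h r hr x
      obtain ⟨t, ht, hu⟩ := h (v + (C.N • x + r))
      obtain ⟨c, rfl, hc⟩ := (hm x r t hr).1 ht
      refine ⟨c, hc, fun c' hc' => ?_⟩
      exact (C.box_unique hr hr (hu _ ((hm x r _ hr).2 ⟨c', rfl, hc'⟩))).1
    · intro h y
      obtain ⟨x, r, hr, e⟩ := C.box_exists (y - v)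
      obtain rfl : y = v + (C.N • x + r) := by rw [← e]; abel
      obtain ⟨c, hc, hu⟩ := h r hr x
      refine ⟨C.N • c + r, (hm x r _ hr).2 ⟨c, rfl, hc⟩, fun t ht => ?_⟩
      obtain ⟨c', rfl, hc'⟩ := (hm x r t hr).1 ht
      rw [hu c' hc']
  rw [key]
  constructor
  · intro h
    refine ⟨?_, fun j => ?_⟩
    · rw [← C.Fl_ns F0 F (r := 0) (fun k e => by simpa [sp1] using congrFun e 1)]
      exact h 0 C.box_zero
    · rw [← C.Fl_sp F0 F (j, false)]
      exact h _ (C.box_sp _)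
  · rintro ⟨h0, h⟩ r -
    by_cases hr : ∀ k, r ≠ C.sp k
    · rwa [C.Fl_ns F0 F hr]
    · push Not at hr
      obtain ⟨k, rfl⟩ := hr
      rw [Fl_sp]; exact h _

variable {F0 F}

theorem fill {A : Set Z3} (hA : TilS (C.TT F0 F) A) {a c : Z3} (ha : a ∈ A) (hc : c ∈ F0)
    (k : J × Bool) : ∃ a' ∈ A, ∃ c' ∈ F k.1, a' + C.N • c' = a + C.N • c := by
  have hN := C.N_ge
  obtain ⟨_, ⟨⟨c', r', hr', hc', rfl⟩, ha'⟩, -⟩ := hA (a + (C.N • c + C.sp k))
  set a' := a + (C.N • c + C.sp k) - (C.N • c' + r') with hdef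
  have e : a' + (C.N • c' + r') = a + (C.N • c + C.sp k) := by rw [hdef]; abel
  by_cases h0 : c' ∈ F0
  · obtain ⟨s, hs, hs1, hs2, hs3⟩ : ∃ s : ℤ, (s = 1 ∨ s = -1) ∧ 0 ≤ r' 1 + s ∧ r' 1 + s < C.N ∧
        r' 1 + s ≠ 2 := by
      have := hr' 1
      by_cases h : r' 1 = 0 ∨ r' 1 = 3
      · exact ⟨1, by omega⟩
      · exact ⟨-1, by omega⟩
    have b1 : C.Box (r' + ![0, s, 0]) := by
      intro i
      have := hr' i
      fin_cases i <;> simp_all
    have b2 : C.Box (C.sp k + ![0, s, 0]) := by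
      intro i
      have := C.box_sp k i
      fin_cases i
      · simpa using this
      · simp [sp1]; omega
      · simpa using this
    have e1 : a' = a := hA.uq ha' ha (C.mem_ns F0 F h0 b1 (by simpa using hs3))
      (C.mem_ns F0 F hc b2 (by simp [sp1]; omega)) (by linear_combination (exp := 1) e)
    rw [e1] at e
    obtain ⟨e2, e3⟩ := C.box_unique hr' (C.box_sp k) (add_left_cancel e)
    subst e2 e3
    rw [Fl_sp] at hc'
    exact ⟨a, ha, c', hc', rfl⟩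
  · rcases hc' with ⟨-, hc'⟩ | ⟨k', rfl, hc'⟩
    · exact absurd hc' h0
    have ht : C.N • c' + C.sp (k'.1, !k'.2) ∈ C.TT F0 F :=
      ⟨c', _, C.box_sp _, Or.inr ⟨(k'.1, !k'.2), rfl, hc'⟩, rfl⟩
    have hb := C.box_sp3 k k' (k'.1, !k'.2)
    have e' : a' + (C.N • c' + C.sp (k'.1, !k'.2))
        = a + (C.N • c + (C.sp k + C.sp (k'.1, !k'.2) - C.sp k')) := by
      linear_combination (exp := 1) e
    by_cases h1 : ∀ k3, C.sp k + C.sp (k'.1, !k'.2) - C.sp k' ≠ C.sp k3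
    · have e1 : a' = a := hA.uq ha' ha ht ⟨c, _, hb, Or.inl ⟨h1, hc⟩, rfl⟩ e'
      rw [e1] at e'
      obtain ⟨e2, -⟩ := C.box_unique (C.box_sp _) hb (add_left_cancel e')
      exact absurd (e2 ▸ hc) h0
    · push Not at h1
      obtain ⟨k3, h3⟩ := h1
      have := C.sidon h3 (fun h => by simpa using congrArg Prod.snd h)
      subst this
      exact ⟨a', ha', c', hc', by linear_combination (exp := 1) e⟩

theorem coset {A : Set Z3} (hA : TilS (C.TT F0 F) A) {c0 : Z3} (hc0 : c0 ∈ F0)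
    (hF : ∀ (i : Fin 3) (s : ℤ), s = 1 ∨ s = -1 → ∃ j, ∀ c ∈ F j, c + Pi.single i s ∈ F0)
    {a0 a : Z3} (ha0 : a0 ∈ A) (ha : a ∈ A) : ∃ b, a = a0 + C.N • b := by
  have hN := C.N_ge
  set Q : Z3 → Prop := fun w => ∃ a ∈ A, ∃ c ∈ F0, a + C.N • c = a0 + C.N • w
  have step : ∀ w i (s : ℤ), s = 1 ∨ s = -1 → Q w → Q (w + Pi.single i s) := by
    rintro w i s hs ⟨a, ha, c, hc, e⟩
    obtain ⟨j, hj⟩ := hF i s hs
    obtain ⟨a', ha', c', hc', e'⟩ := C.fill hA ha hc (j, false)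
    exact ⟨a', ha', _, hj c' hc', by rw [smul_add, smul_add, ← add_assoc, e', e, add_assoc]⟩
  have step' : ∀ i (t : ℤ) w, Q w → Q (w + Pi.single i t) := by
    intro i t
    induction t using Int.induction_on with
    | zero => simp
    | succ t ih =>
      intro w hw
      rw [Pi.single_add, ← add_assoc]
      exact step _ i 1 (Or.inl rfl) (ih w hw)
    | pred t ih =>
      intro w hw
      rw [sub_eq_add_neg, Pi.single_add, ← add_assoc]
      exact step _ i (-1) (Or.inr rfl) (ih w hw)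
  have all : ∀ w, Q w := by
    intro w
    have := step' 2 ((w - c0) 2) _ (step' 1 ((w - c0) 1) _ (step' 0 ((w - c0) 0) c0
      ⟨a0, ha0, c0, hc0, rfl⟩))
    convert this using 1
    funext i
    fin_cases i <;> simp
  obtain ⟨s, hs0, hs1, hs⟩ : ∃ s : ℤ, 0 ≤ s ∧ s ≤ 1 ∧ (a 1 - a0 1 + s) % C.N ≠ 2 := by
    by_cases h : (a 1 - a0 1) % C.N = 2
    · refine ⟨1, by omega, by omega, ?_⟩
      rw [← Int.emod_add_emod, h, Int.emod_eq_of_lt (by omega) (by omega)]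
      omega
    · exact ⟨0, by omega, by omega, by simpa using h⟩
  have b1 : C.Box ![0, s, 0] := by
    intro i
    fin_cases i <;> simp <;> omega
  obtain ⟨w, r, hr, e⟩ := C.box_exists (a - a0 + ![0, s, 0])
  have hr1 : r 1 ≠ 2 := by
    have e1 := congrFun e 1
    simp at e1
    rw [e1, add_comm, Int.add_mul_emod_self_left, Int.emod_eq_of_lt (hr 1).1 (hr 1).2] at hs
    exact hs
  obtain ⟨a', ha', c', hc', e'⟩ := all (w + c0)
  have e1 : a = a' := hA.uq ha ha' (C.mem_ns F0 F hc0 b1 (by simp; omega))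
    (C.mem_ns F0 F hc' hr hr1) (by
      rw [smul_add] at e'
      linear_combination (exp := 1) e - e')
  exact ⟨w + c0 - c', by rw [smul_sub, ← add_sub_assoc, ← e', e1]; abel⟩

end Cell

theorem exists_tile : ∃ (T : Set Z3) (N : ℤ), T.Finite ∧ T.Nonempty ∧ 2 ≤ N ∧ (∃ A, TilS T A) ∧
    ∀ A, TilS T A → (∀ a ∈ A, ∀ a' ∈ A, ∀ i, N ∣ a i - a' i) ∧
      ∀ K : ℕ, 0 < K → ¬ ∀ a ∈ A, a + Pi.single 0 (K : ℤ) ∈ A := by
  classical
  obtain ⟨Sy, ⟨𝒯, hfin, h𝒯⟩, ⟨B0, hB0⟩, hap⟩ := exists_system3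
  obtain ⟨τ0, hτ0⟩ : ∃ τ, τ ∈ 𝒯 := by
    by_contra hc
    exact hap ∅ ((h𝒯 ∅).1 fun τ hτ => absurd ⟨τ, hτ⟩ hc) 1 one_pos (by simp)
  have hinj : ∀ τ ∈ 𝒯, Function.Injective τ.f := by
    intro τ hτ i i' e
    have h := (h𝒯 B0).2 hB0 τ hτ
    obtain ⟨i0, hi0, -⟩ := h 0
    exact (h (0 - τ.f i0 + τ.f i)).unique (by simpa using hi0) (by rw [e]; simpa using hi0)
  have hiff : ∀ τ ∈ 𝒯, ∀ B, TilS (Set.range τ.f) B ↔ TilI τ.f B := by
    intro τ hτ B
    refine forall_congr' fun x => ?_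
    constructor
    · rintro ⟨_, ⟨⟨i, rfl⟩, hi⟩, hu⟩
      exact ⟨i, hi, fun i' hi' => hinj τ hτ (hu _ ⟨⟨i', rfl⟩, hi'⟩)⟩
    · rintro ⟨i, hi, hu⟩
      refine ⟨_, ⟨⟨i, rfl⟩, hi⟩, ?_⟩
      rintro _ ⟨⟨i', rfl⟩, hi'⟩
      rw [hu i' hi']
  have := hfin.to_subtype
  obtain ⟨n, ⟨en⟩⟩ := Finite.exists_equiv_fin 𝒯
  obtain ⟨C⟩ := exists_cell (Fin n ⊕ (Fin 3 × Bool))
  set F0 : Set Z3 := Set.range τ0.f
  have f0 : F0.Finite := by have := τ0.fin; exact Set.finite_range _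
  set F : Fin n ⊕ (Fin 3 × Bool) → Set Z3 := Sum.elim (fun τ => Set.range (en.symm τ).1.f)
    (fun t => {c | c + Pi.single t.1 (if t.2 then 1 else -1) ∈ F0})
  have f1 : ∀ j, (F j).Finite := by
    rintro (τ | t)
    · have := (en.symm τ).1.fin; exact Set.finite_range _
    · exact f0.preimage (add_left_injective _).injOn
  have hS : ∀ B, (TilS F0 B ∧ ∀ j, TilS (F j) B) ↔ Sy B := by
    intro B
    rw [← h𝒯]
    constructor
    · intro h τ hτ
      obtain ⟨j, hj⟩ := en.symm.surjective ⟨τ, hτ⟩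
      obtain rfl : (en.symm j).1 = τ := by rw [hj]
      exact (hiff _ hτ B).1 (h.2 (.inl j))
    · intro h
      have h0 : TilS F0 B := (hiff τ0 hτ0 B).2 (h τ0 hτ0)
      refine ⟨h0, ?_⟩
      rintro (τ | t)
      · exact (hiff _ (en.symm τ).2 B).2 (h _ (en.symm τ).2)
      · intro x
        obtain ⟨c, ⟨hc, hx⟩, hu⟩ := h0 (x + Pi.single t.1 (if t.2 then 1 else -1))
        refine ⟨c - Pi.single t.1 (if t.2 then 1 else -1), ⟨by simpa [F] using hc, ?_⟩, ?_⟩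
        · convert hx using 1; abel
        · rintro c' ⟨hc', hx'⟩
          rw [← hu _ ⟨hc', by simpa using hx'⟩]; simp
  obtain ⟨i0, -⟩ := (h𝒯 B0).2 hB0 τ0 hτ0 0
  have hc0 : τ0.f i0 ∈ F0 := ⟨i0, rfl⟩
  have hN := C.N_ge
  refine ⟨C.TT F0 F, C.N, C.TT_finite F0 F f0 f1, ⟨_, C.mem_ns F0 F hc0 C.box_zero (by simp)⟩,
    by omega, ⟨_, (C.til_coset F0 F 0 B0).2 ((hS B0).2 hB0)⟩, fun A hA => ?_⟩
  have hco : ∀ a0 ∈ A, ∀ a ∈ A, ∃ b, a = a0 + C.N • b := by
    intro a0 ha0 a ha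
    refine C.coset hA hc0 (fun i s hs => ?_) ha0 ha
    rcases hs with rfl | rfl
    · exact ⟨.inr (i, true), fun c hc => by simpa [F] using hc⟩
    · exact ⟨.inr (i, false), fun c hc => by simpa [F] using hc⟩
  refine ⟨fun a ha a' ha' i => ?_, fun K hK hper => ?_⟩
  · obtain ⟨b, rfl⟩ := hco a' ha' a ha
    simp
  · obtain ⟨t, ⟨-, ha0⟩, -⟩ := hA 0
    set a0 := 0 - t
    have hAe : A = {a | ∃ b ∈ {b | a0 + C.N • b ∈ A}, a = a0 + C.N • b} := by
      ext a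
      constructor
      · intro ha
        obtain ⟨b, rfl⟩ := hco a0 ha0 a ha
        exact ⟨b, ha, rfl⟩
      · rintro ⟨b, hb, rfl⟩
        exact hb
    have hB := (hS _).1 ((C.til_coset F0 F a0 _).1 (hAe ▸ hA))
    refine hap _ hB K hK fun b hb => ?_
    have hn : ∀ n : ℕ, ∀ a ∈ A, a + n • Pi.single 0 (K : ℤ) ∈ A := by
      intro n
      induction n with
      | zero => simp
      | succ n ih => intro a ha; rw [succ_nsmul, ← add_assoc]; exact hper _ (ih a ha)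
    have := hn C.N.toNat _ hb
    rw [← natCast_zsmul, Int.toNat_of_nonneg (by omega), add_assoc, ← smul_add] at this
    exact this

end Crest.Agent.R46
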