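import Crest.Agent.R46.Struct

set_option autoImplicit false
set_option linter.unusedSectionVars false

namespace Crest.Agent.R46

variable {Lab Dat : Type} {q : Lab → ℕ} {m : Dat → ℕ}
variable [Fintype Lab] [DecidableEq Lab] [∀ c, NeZero (q c)]
variable {s : X → Yb q} {D : X → Y q → Dt m}

/-- shift the label part of a mode -/
def Mode.shift (μ : Mode q) (δ : Y q) : Mode q := ⟨μ.pos, μ.lab + δ⟩

def mulI (i : Yb q) (δ : Y q) : Y q := fun c => ((i c).val : ZMod (q c ^ 2)) * δ c

theorem red_mulI (i : Yb q) {δ : Y q} (h : red q δ = 0) : red q (mulI i δ) = 0 := by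
  funext c
  have : red1 (q c) (δ c) = 0 := congrFun h c
  simp [red, mulI, this]

theorem off_shift (μ : Mode q) (δ : Y q) (i : Yb q) :
    off (μ.shift δ) i = off μ i + (0, mulI i δ) := by
  ext <;> simp [off, Mode.shift, mulI, mul_add]

theorem match_ker (p : Pt q) {κ : Y q} (h : red q κ = 0) : Match s (p - (0, κ)) ↔ Match s p := by
  simp [Match, red_sub, h]

theorem sel_shift {μ : Mode q} (h : Sel s μ) {δ : Y q} (hδ : red q δ = 0) : Sel s (μ.shift δ) := by
  intro p
  simp only [off_shift, ← sub_sub, match_ker _ (red_mulI _ hδ)]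
  exact h p

theorem idx_ker {μ : Mode q} (h : Sel s μ) (p : Pt q) {κ : Y q} (hκ : red q κ = 0) :
    idx s μ (p - (0, κ)) = idx s μ p := by
  apply idx_eq h
  rw [sub_right_comm, match_ker _ hκ]
  exact idx_spec h p

theorem W_shift {μ : Mode q} (h : Sel s μ) {δ : Y q} (hδ : red q δ = 0) (p : Pt q) :
    W s D (μ.shift δ) p = W s D μ (p - (0, mulI (idx s μ p) δ)) := by
  have h1 : Match s (p - off (μ.shift δ) (idx s μ p)) := by
    rw [off_shift, ← sub_sub, match_ker _ (red_mulI _ hδ)]; exact idx_spec h p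
  rw [W_eq (sel_shift h hδ) h1, W, idx_ker h p (red_mulI _ hδ), off_shift, ← sub_sub,
    sub_right_comm]

theorem mulI_sg (i : Yb q) (c : Lab) : mulI i (sg q c) = (i c).val • sg q c := by
  funext c'
  by_cases h : c' = c
  · subst h; simp [mulI, sg]
  · simp [mulI, sg, h]

theorem red_zsmul_sg (t : ℤ) (c : Lab) : red q (t • sg q c) = 0 := by
  funext c'
  have : red1 (q c') (sg q c c') = 0 := congrFun (red_sg c) c'
  simp [red, this]

theorem q_smul_sg (c : Lab) : (q c : ℤ) • sg q c = 0 := by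
  funext c'
  by_cases h : c' = c
  · subst h
    simp only [sg, Pi.smul_apply, Pi.single_eq_same, zsmul_eq_mul, Int.cast_natCast, Pi.zero_apply]
    rw [← Nat.cast_mul, ← sq, ZMod.natCast_self]
  · simp [sg, h]

theorem core {μ : Mode q} (h : Sel s μ) (c : Lab) (b : Dat) (h' : X)
    (hq : (q c : ZMod (m b)) ≠ 0)
    (I2 : ∀ p, W s D (μ.shift (sg q c)) (p - (h', 0)) b = W s D (μ.shift (sg q c)) p b)
    (p0 : Pt q)
    (hs : ∀ t : ℤ, W s D μ (p0 - (0, t • sg q c) - (h', 0)) b + 1
      = W s D μ (p0 - (0, t • sg q c)) b) : False := by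
  set φ : ℤ → ZMod (m b) := fun t => W s D μ (p0 - (0, t • sg q c)) b
  set i : ℤ := (((idx s μ p0 c).val : ℕ) : ℤ)
  set i' : ℤ := (((idx s μ (p0 - (h', 0)) c).val : ℕ) : ℤ)
  have step : ∀ t : ℤ, φ (t + i') = φ (t + i) + 1 := by
    intro t
    have e := I2 (p0 - (0, t • sg q c))
    rw [W_shift h (red_sg c), W_shift h (red_sg c), sub_right_comm p0,
      idx_ker h _ (red_zsmul_sg t c), idx_ker h _ (red_zsmul_sg t c), mulI_sg, mulI_sg] at e
    have e1 := hs (t + i')
    have e2 : p0 - (0, (t + i') • sg q c) - (h', 0)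
        = p0 - (h', 0) - (0, t • sg q c) - (0, (idx s μ (p0 - (h', 0)) c).val • sg q c) := by
      ext <;> simp [i', add_smul]; ring
    have e3 : p0 - (0, (t + i) • sg q c)
        = p0 - (0, t • sg q c) - (0, (idx s μ p0 c).val • sg q c) := by
      ext <;> simp [i, add_smul]; ring
    simp only [φ]
    rw [← e1, e2, e, e3]
  have hn : ∀ n : ℕ, φ (n * (i' - i)) = φ 0 + n := by
    intro n
    induction n with
    | zero => simp
    | succ n ih =>
      have := step (n * (i' - i) - i)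
      rw [sub_add_cancel, ih] at this
      rw [show ((n + 1 : ℕ) : ℤ) * (i' - i) = n * (i' - i) - i + i' by push_cast; ring, this]
      push_cast; ring
  have := hn (q c)
  simp only [φ] at this
  rw [mul_comm, mul_smul, q_smul_sg, smul_zero, zero_smul] at this
  exact hq (by simpa using this)

/-- data component `d` at position `x` depends on label `c` -/
def Dep (s : X → Yb q) (D : X → Y q → Dt m) (x : X) (d : Dat) (c : Lab) : Prop :=
  ¬ ∀ y, W s D (box q) (x, y - sg q c) d = W s D (box q) (x, y) d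

theorem D_eq_of (x : X) (d : Dat) (S : Lab → Prop) (hS : ∀ c, S c → ¬ Dep s D x d c)
    {y y' : Y q} (hy : red q y = s x) (hy' : red q y' = s x) (he : ∀ c, ¬ S c → y c = y' c) :
    D x y d = D x y' d := by
  have := inv_kernel (fun y => W s D (box q) (x, y) d) S (fun c hc => not_not.1 (hS c hc))
    (y - y') (by rw [red_sub, hy, hy', sub_self]) (fun c hc => by simp [he c hc]) y
  simp only [sub_sub_cancel] at this
  rw [W_match sel_box (p := (x, y)) hy, W_match sel_box (p := (x, y')) hy'] at this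
  exact this.symm

theorem Wbox_eq_of (x : X) (d : Dat) (S : Lab → Prop) (hS : ∀ c, S c → ¬ Dep s D x d c)
    {y y' : Y q} (he : ∀ c, ¬ S c → y c = y' c) :
    W s D (box q) (x, y) d = W s D (box q) (x, y') d := by
  have m1 := (match_box (s := s) (x, y) _).2 rfl
  have m2 := (match_box (s := s) (x, y') _).2 rfl
  rw [W_eq sel_box m1, W_eq sel_box m2]
  simp only [Match, Prod.fst_sub, off_box_fst, sub_zero] at m1 m2 ⊢
  refine D_eq_of x d S hS m1 m2 fun c hc => ?_
  simp [off, red, he c hc]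

theorem exists_red (v : Yb q) : ∃ y, red q y = v := ⟨_, red_off_box v⟩

theorem forceV {μ : Mode q} (h : Sel s μ) (S : Lab → Prop) (δ : Y q) (hδ : red q δ = 0)
    (hδS : ∀ c, ¬ S c → δ c = 0) (c : Lab) (b b' : Dat) (x1 x2 : X)
    (hq : (q c : ZMod (m b')) ≠ 0) (h1 : (1 : ZMod (m b)) ≠ 0)
    (I1 : ∀ p, W s D (μ.shift δ) (p - (x1, 0)) b = W s D (μ.shift δ) p b)
    (I2 : ∀ p, W s D (μ.shift (sg q c)) (p - (x2, 0)) b' = W s D (μ.shift (sg q c)) p b')
    (Cl : ∀ p, W s D μ (p - (x1, 0)) b + 1 = W s D μ p b ∨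
      W s D μ (p - (x2, 0)) b' + 1 = W s D μ p b') (x0 : X) :
    ∃ c, S c ∧ Dep s D x0 b c := by
  by_contra hc
  have hS : ∀ c, S c → ¬ Dep s D x0 b c := fun c h1 h2 => hc ⟨c, h1, h2⟩
  have key : ∀ y, red q y = s x0 → W s D μ ((x0, y) - (x1, 0)) b = W s D μ (x0, y) b := by
    intro y hy
    set κ' := mulI (idx s μ ((x0, y) - (x1, 0))) δ
    have hκ' : red q κ' = 0 := red_mulI _ hδ
    have e := I1 (x0, y + κ')
    have e0 : ((x0, y + κ') : Pt q) - (x1, 0) = (x0, y) - (x1, 0) - (0, -κ') := by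
      ext <;> simp
    have hκ'' : red q (-κ') = 0 := by
      rw [← zero_sub, red_sub, hκ', red_zero, sub_self]
    rw [W_shift h hδ, W_shift h hδ, e0, idx_ker h _ hκ''] at e
    have e1 : ((x0, y) : Pt q) - (x1, 0) - (0, -κ') - (0, κ') = (x0, y) - (x1, 0) := by
      ext <;> simp
    rw [e1] at e
    rw [e]
    have m1 : red q (y + κ' - mulI (idx s μ (x0, y + κ')) δ) = s x0 := by
      rw [red_sub, red_add, hκ', red_mulI _ hδ, hy]; simp
    have e2 : ((x0, y + κ') : Pt q) - (0, mulI (idx s μ (x0, y + κ')) δ)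
      = (x0, y + κ' - mulI (idx s μ (x0, y + κ')) δ) := by ext <;> simp
    rw [e2, W_match h (p := (x0, _)) m1, W_match h (p := (x0, y)) hy]
    refine D_eq_of x0 b S hS m1 hy fun c hc => ?_
    simp [κ', mulI, hδS c hc]
  obtain ⟨y0, hy0⟩ := exists_red (s x0)
  refine core h c b' x2 hq I2 (x0, y0) fun t => ?_
  have e2 : ((x0, y0) : Pt q) - (0, t • sg q c) = (x0, y0 - t • sg q c) := by ext <;> simp
  rcases Cl ((x0, y0) - (0, t • sg q c)) with e | e
  · rw [e2, key _ (by rw [red_sub, red_zsmul_sg, hy0, sub_zero])] at e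
    exact absurd (by simpa using e) h1
  · exact e

/-- replace the box at `κ` by a line -/
def Mode.line (μ : Mode q) (κ : Lab) (η : X) : Mode q :=
  ⟨Function.update μ.pos κ η, Function.update μ.lab κ 0⟩

theorem off_line (μ : Mode q) (κ : Lab) (η : X) (h0 : μ.pos κ = 0) (i : Yb q) :
    off (μ.line κ η) i = off μ (Function.update i κ 0) + ((i κ).val • η, 0) := by
  ext1
  · simp only [off, Mode.line, Prod.fst_add]
    rw [← Finset.add_sum_erase _ _ (Finset.mem_univ κ),
      ← Finset.add_sum_erase _ _ (Finset.mem_univ κ), h0]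
    simp only [Function.update_self, smul_zero, zero_add]
    rw [add_comm]; congr 1
    refine Finset.sum_congr rfl fun c hc => ?_
    simp [Finset.ne_of_mem_erase hc]
  · funext c
    by_cases hc : c = κ
    · subst hc; simp [off, Mode.line]
    · simp [off, Mode.line, hc]

theorem off_fst_update (μ : Mode q) (κ : Lab) (h0 : μ.pos κ = 0) (i : Yb q) (r : ZMod (q κ)) :
    (off μ (Function.update i κ r)).1 = (off μ i).1 := by
  simp only [off]
  refine Finset.sum_congr rfl fun c _ => ?_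
  by_cases hc : c = κ
  · subst hc; simp [h0]
  · simp [hc]

theorem match_update (μ : Mode q) (κ : Lab) (h0 : μ.pos κ = 0) (h1 : μ.lab κ = 1) {x : X}
    {y y' : Y q} (he : ∀ c, c ≠ κ → y c = y' c) {i : Yb q} (hm : Match s ((x, y) - off μ i)) :
    Match s ((x, y') - off μ (Function.update i κ
      (red1 (q κ) (y' κ) - s (x - (off μ i).1) κ))) := by
  simp only [Match, Prod.fst_sub, Prod.snd_sub, off_fst_update μ κ h0] at hm ⊢
  funext c
  by_cases hc : c = κ
  · subst hc; simp [red, off, h1]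
  · rw [← congrFun hm c]
    simp [red, off, hc, he c hc]

theorem off_mem (μ : Mode q) (Ln : AddSubgroup X) (hp : ∀ c, μ.pos c ∈ Ln) (i : Yb q) :
    (off μ i).1 ∈ Ln :=
  Ln.sum_mem fun c _ => Ln.nsmul_mem (hp c) _

theorem forceC {μ : Mode q} (h : Sel s μ) (κ : Lab) (η : X) (h0 : μ.pos κ = 0) (h1 : μ.lab κ = 1)
    (hl : Sel s (μ.line κ η)) (c : Lab) (b b' : Dat) (x1 x2 : X)
    (Ln : AddSubgroup X) (hp : ∀ c, μ.pos c ∈ Ln) (hη : η ∈ Ln) (hx1 : x1 ∈ Ln)
    (hq : (q c : ZMod (m b')) ≠ 0) (hκ : (q κ : ZMod (m b)) ≠ 0)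
    (Ind : ∀ x, ¬ Dep s D x b κ)
    (I1 : ∀ p, W s D (μ.line κ η) (p - (x1, 0)) b = W s D (μ.line κ η) p b)
    (I2 : ∀ p, W s D (μ.shift (sg q c)) (p - (x2, 0)) b' = W s D (μ.shift (sg q c)) p b')
    (Cl : ∀ p, W s D μ (p - (x1, 0)) b + 1 = W s D μ p b ∨
      W s D μ (p - (x2, 0)) b' + 1 = W s D μ p b') :
    ∃ x ∈ Ln, Dep s D x b c := by
  classical
  by_contra hc
  have hS : ∀ x ∈ Ln, ¬ Dep s D x b c := fun x h1 h2 => hc ⟨x, h1, h2⟩
  have hA : ∀ x (y y' : Y q), (∀ c, c ≠ κ → y c = y' c) →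
      W s D μ (x, y) b = W s D μ (x, y') b := by
    intro x y y' he
    have m1 := idx_spec h (x, y)
    have m2 := match_update μ κ h0 h1 he m1
    rw [W_eq h m1, W_eq h m2]
    simp only [Match, Prod.fst_sub, Prod.snd_sub, off_fst_update μ κ h0] at m1 m2 ⊢
    refine D_eq_of _ b (fun c => c = κ) (fun c hc => hc ▸ Ind _) m1 m2 fun c hc => ?_
    simp [off, hc, he c hc]
  have hB : ∀ x ∈ Ln, ∀ (y : Y q) (t : ℤ),
      W s D μ (x, y - t • sg q c) b = W s D μ (x, y) b := by
    intro x hx y t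
    have e2 : ((x, y - t • sg q c) : Pt q) = (x, y) - (0, t • sg q c) := by ext <;> simp
    have m1 := idx_spec h (x, y)
    have m2 : Match s ((x, y - t • sg q c) - off μ (idx s μ (x, y))) := by
      rw [e2, sub_right_comm, match_ker _ (red_zsmul_sg t c)]; exact m1
    rw [W_eq h m1, W_eq h m2]
    simp only [Match, Prod.fst_sub, Prod.snd_sub] at m1 m2 ⊢
    refine D_eq_of _ b (fun c' => c' = c) (fun c' hc => hc ▸ hS _ (Ln.sub_mem hx
      (off_mem μ Ln hp _))) m2 m1 fun c' hc => ?_
    simp [sg, hc]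
  set bb : X → ZMod (m b) := fun x => W s D μ (x, 0) b
  set yk : ZMod (q κ) → Y q := fun k => Pi.single κ ((k.val : ℕ) : ZMod (q κ ^ 2))
  set ι : X → ZMod (q κ) → ZMod (q κ) := fun x k => idx s (μ.line κ η) (x, yk k) κ
  have hm : ∀ x k, Match s ((x - (ι x k).val • η, yk k) -
      off μ (Function.update (idx s (μ.line κ η) (x, yk k)) κ 0)) := by
    intro x k
    have := idx_spec hl (x, yk k)
    rw [off_line μ κ η h0] at this
    convert this using 1
    ext1
    · simp [ι]; abel
    · simp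
  have hC : ∀ x k, W s D (μ.line κ η) (x, yk k) b = bb (x - (ι x k).val • η) := by
    intro x k
    simp only [bb]
    rw [← hA _ (yk k) 0 (fun c hc => by simp [yk, hc]), W_eq h (hm x k), W,
      off_line μ κ η h0]
    congr 1
    · simp [ι]; abel
    · simp
  have hk : ∀ x k, s (x - (ι x k).val • η -
      (off μ (Function.update (idx s (μ.line κ η) (x, yk k)) κ 0)).1) κ = k := by
    intro x k
    have := congrFun (hm x k) κ
    simp only [Prod.fst_sub, Prod.snd_sub] at this
    rw [← this]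
    simp [red, off, yk]
  have hinj : ∀ x, Function.Injective (ι x) := by
    intro x k k' e
    have m1 := match_update μ κ h0 h1 (y' := yk k') (fun c hc => by simp [yk, hc]) (hm x k)
    have m2 := hm x k'
    rw [← e] at m2
    have := congrFun ((h _).unique m1 m2) κ
    simp only [Function.update_self, hk x k] at this
    have e2 : red1 (q κ) (yk k' κ) = k' := by simp [yk]
    rw [e2] at this
    exact (sub_eq_zero.1 this).symm
  have hsum : ∀ x, ∑ k, W s D (μ.line κ η) (x, yk k) b = ∑ v : ZMod (q κ), bb (x - v.val • η) := by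
    intro x
    simp only [hC]
    exact Function.Bijective.sum_comp (Finite.injective_iff_bijective.1 (hinj x))
      (fun v => bb (x - v.val • η))
  obtain ⟨x, hx, hne⟩ : ∃ x ∈ Ln, bb (x - x1) + 1 ≠ bb x := by
    by_contra hn
    push Not at hn
    have e1 : ∑ v : ZMod (q κ), bb (0 - x1 - v.val • η) = ∑ v : ZMod (q κ), bb (0 - v.val • η) := by
      rw [← hsum, ← hsum]
      refine Finset.sum_congr rfl fun k _ => ?_
      rw [← I1 (0, yk k)]; simp
    have e2 : ∑ v : ZMod (q κ), bb (0 - v.val • η)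
        = ∑ v : ZMod (q κ), (bb (0 - x1 - v.val • η) + 1) := by
      refine Finset.sum_congr rfl fun v _ => ?_
      rw [← hn _ (Ln.sub_mem Ln.zero_mem (Ln.nsmul_mem hη _)), sub_right_comm]
    rw [Finset.sum_add_distrib, e1] at e2
    apply hκ
    simpa [ZMod.card] using e2
  refine core h c b' x2 hq I2 (x, 0) fun t => ?_
  rcases Cl ((x, 0) - (0, t • sg q c)) with e | e
  · exfalso
    apply hne
    have e2 : ((x, 0) : Pt q) - (0, t • sg q c) = (x, 0 - t • sg q c) := by ext <;> simp
    have e3 : ((x, 0 - t • sg q c) : Pt q) - (x1, 0) = (x - x1, 0 - t • sg q c) := by ext <;> simp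
    rw [e2, e3, hB _ hx, hB _ (Ln.sub_mem hx hx1)] at e
    exact e
  · exact e

theorem lit_clause {G L : Type} (own : Lab → Option G) (gd : L → G)
    (hgd : Function.Injective gd) (lit : L → Dat) (lb : L → Lab) (x : X)
    (Ind : ∀ j c, own c ≠ some (gd j) → ¬ Dep s D x (lit j) c)
    (Cl : ∀ y, ∃ j, W s D (box q) (x, y - sg q (lb j)) (lit j) = W s D (box q) (x, y) (lit j)) :
    ∃ j, ¬ Dep s D x (lit j) (lb j) := by
  classical
  by_contra hc
  push Not at hc
  simp only [Dep, not_forall] at hc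
  choose yy hyy using hc
  set y : Y q := fun c => if h : ∃ j, own c = some (gd j) then yy h.choose c else 0
  have hy : ∀ j c, own c = some (gd j) → y c = yy j c := by
    intro j c hc
    have h : ∃ j, own c = some (gd j) := ⟨j, hc⟩
    have : h.choose = j := hgd (Option.some.inj (h.choose_spec.symm.trans hc))
    simp only [y, dif_pos h, this]
  obtain ⟨j, hj⟩ := Cl y
  apply hyy j
  rw [← Wbox_eq_of x (lit j) _ (Ind j) (y := y) (fun c hc => hy j c (not_not.1 hc)), ← hj]
  exact Wbox_eq_of x (lit j) _ (Ind j) (fun c hc => by simp [hy j c (not_not.1 hc)])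

end Crest.Agent.R46
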