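import Mathlib

set_option autoImplicit false

namespace Crest.Agent.R46

/-- representative of `z` mod `n` in the window `[σ, σ + n)` -/
def lift (n σ z : ℤ) : ℤ := if z % n < σ then z % n + n else z % n

def FF (n P q P' ζ ξ : ℤ) : ℤ := - lift n (if ξ % q < P' then 0 else P) ζ
def GG (n P q P' ζ ξ : ℤ) : ℤ := - lift q (if ζ % n < P then P' else 0) ξ

theorem FF_congr {n P q P' ζ ξ ζ' ξ' : ℤ} (h1 : ζ ≡ ζ' [ZMOD n]) (h2 : ξ ≡ ξ' [ZMOD q]) :
    FF n P q P' ζ ξ = FF n P q P' ζ' ξ' := by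
  unfold FF lift
  rw [h1, h2]

theorem GG_congr {n P q P' ζ ξ ζ' ξ' : ℤ} (h1 : ζ ≡ ζ' [ZMOD n]) (h2 : ξ ≡ ξ' [ZMOD q]) :
    GG n P q P' ζ ξ = GG n P q P' ζ' ξ' := by
  unfold GG lift
  rw [h1, h2]

theorem lift_eq {n σ z w : ℤ} (h0 : 0 ≤ σ) (h1 : σ ≤ n) (h2 : σ ≤ w) (h3 : w < σ + n)
    (h4 : w ≡ z [ZMOD n]) : lift n σ z = w := by
  unfold lift
  rw [← h4]
  by_cases h : w < n
  · rw [Int.emod_eq_of_lt (by omega) h, if_neg (by omega)]
  · have : w % n = w - n := by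
      rw [← Int.sub_emod_right, Int.emod_eq_of_lt (by omega) (by omega)]
    rw [this, if_pos (by omega)]; ring

theorem lift_mod (n σ z : ℤ) : lift n σ z ≡ z [ZMOD n] := by
  unfold lift
  split_ifs
  · simp [Int.ModEq]
  · simp [Int.ModEq]

theorem lift_sub {n σ z a : ℤ} (hn : 0 < n) (h0 : 0 ≤ σ) (h1 : σ ≤ n) (ha : 0 ≤ a)
    (h : σ + a ≤ lift n σ z) : lift n σ (z - a) = lift n σ z - a := by
  refine lift_eq h0 h1 (by omega) ?_ ((lift_mod n σ z).sub_right a)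
  have := Int.emod_lt_of_pos z hn
  unfold lift
  split_ifs <;> omega

theorem FG {n P q P' : ℤ} (hP : 0 < P) (hP' : 0 < P') (hn : 2 * P ≤ n) (hq : 2 * P' ≤ q)
    (ζ ξ : ℤ) :
    (∀ a, 0 ≤ a → a < P → FF n P q P' (ζ - a) ξ = FF n P q P' ζ ξ + a) ∨
    (∀ a, 0 ≤ a → a < P' → GG n P q P' ζ (ξ - a) = GG n P q P' ζ ξ + a) := by
  have a1 := Int.emod_nonneg ζ (show n ≠ 0 by omega)
  have a2 := Int.emod_nonneg ξ (show q ≠ 0 by omega)
  by_cases h1 : ζ % n < P <;> by_cases h2 : ξ % q < P'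
  · right
    intro a h3 h4
    unfold GG
    rw [if_pos h1, lift_sub (by omega) (by omega) (by omega) h3 (by
      unfold lift; rw [if_pos h2]; omega)]
    ring
  · left
    intro a h3 h4
    unfold FF
    rw [if_neg h2, lift_sub (by omega) (by omega) (by omega) h3 (by
      unfold lift; rw [if_pos h1]; omega)]
    ring
  · left
    intro a h3 h4
    unfold FF
    rw [if_pos h2, lift_sub (by omega) (by omega) (by omega) h3 (by
      unfold lift; rw [if_neg (by omega)]; omega)]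
    ring
  · right
    intro a h3 h4
    unfold GG
    rw [if_neg h1, lift_sub (by omega) (by omega) (by omega) h3 (by
      unfold lift; rw [if_neg (by omega)]; omega)]
    ring

theorem FF_loc {n P q P' ζ : ℤ} (hP : 0 < P) (h : P ≤ ζ % n) (ξ ξ' : ℤ) :
    FF n P q P' ζ ξ = FF n P q P' ζ ξ' := by
  have : ∀ ξ, FF n P q P' ζ ξ = -(ζ % n) := by
    intro ξ
    unfold FF lift
    split_ifs <;> omega
  rw [this, this]

theorem val_sub_mul {n : ℕ} [NeZero n] (y : ZMod (n ^ 2)) (t : ℕ) :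
    ((y - (t : ZMod (n ^ 2)) * (n : ZMod (n ^ 2))).val : ℤ) / n
      - ((y - (t : ZMod (n ^ 2)) * (n : ZMod (n ^ 2))).val : ℤ)
      ≡ (y.val : ℤ) / n - y.val - t [ZMOD n] := by
  set y' := y - (t : ZMod (n ^ 2)) * (n : ZMod (n ^ 2))
  have hn : (n : ℤ) ≠ 0 := by exact_mod_cast NeZero.ne n
  have h : (((y'.val : ℤ) - (y.val - t * n) : ℤ) : ZMod (n ^ 2)) = 0 := by
    push_cast; simp [y']
  rw [ZMod.intCast_zmod_eq_zero_iff_dvd] at h
  obtain ⟨k, hk⟩ := h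
  have e : (y'.val : ℤ) = y.val + (n * k - t) * n := by
    push_cast at hk; linear_combination hk
  rw [e, Int.add_mul_ediv_right _ _ hn]
  apply Int.ModEq.symm
  rw [Int.modEq_iff_dvd]
  exact ⟨k - (n * k - t), by ring⟩

end Crest.Agent.R46
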