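import Crest.Agent.R46.Sys
import Crest.Agent.R46.Win

set_option autoImplicit false
set_option linter.unusedSectionVars false

namespace Crest.Agent.R46

variable {p : ℕ}

namespace Par
variable (P : Par p)

theorem e_q (c : Lab p) (d : Dat p) : (P.q c : ℤ) ∣ P.e (.inr d) :=
  P.e0 (c := .inr d) (c' := .inl c) (by simp)
theorem e_m {d d' : Dat p} (h : d' ≠ d) : (P.m d' : ℤ) ∣ P.e (.inr d) :=
  P.e0 (c := .inr d) (c' := .inr d') (by simpa using h)
theorem e_m1 (d : Dat p) : (P.m d : ℤ) ∣ P.e (.inr d) - 1 := P.e1 (.inr d)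
theorem l_q {c c' : Lab p} (h : c' ≠ c) : (P.q c' : ℤ) ∣ P.e (.inl c) :=
  P.e0 (c := .inl c) (c' := .inl c') (by simpa using h)
theorem l_q1 (c : Lab p) : (P.q c : ℤ) ∣ P.e (.inl c) - 1 := P.e1 (.inl c)
theorem l_m (c : Lab p) (d : Dat p) : (P.m d : ℤ) ∣ P.e (.inl c) :=
  P.e0 (c := .inl c) (c' := .inr d) (by simp)

def J : Gad p → X → ℤ
  | .inl _, x => -x.2
  | .inr _, x => x.1

theorem J_move (g : Gad p) (x : X) (T : ℤ) : J g (x - T • dir g) = J g x - T := by
  cases g <;> simp [J, dir]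
  ring

def aa (g : Gad p) (b : Bool) (x : X) : ℤ := J g x % P.m (g, b)

theorem aa_move (g : Gad p) (b : Bool) (x : X) {T : ℤ} (h : (P.m (g, b) : ℤ) ∣ T) :
    P.aa g b (x - T • dir g) = P.aa g b x := by
  unfold aa
  rw [J_move]
  exact (Int.modEq_iff_dvd.2 (by simpa using h) : J g x - T ≡ J g x [ZMOD P.m (g, b)])

theorem aa_move' (k k' : CG) (b : Bool) (x : X) {T : ℤ} (h : (P.m (.inr k', b) : ℤ) ∣ T) :
    P.aa (.inr k') b (x - T • dir (p := p) (.inr k)) = P.aa (.inr k') b x :=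
  P.aa_move (.inr k') b x h

theorem aa_nonneg (g : Gad p) (b : Bool) (x : X) : 0 ≤ P.aa g b x :=
  Int.emod_nonneg _ (by exact_mod_cast NeZero.ne _)

theorem aa_lt (g : Gad p) (b : Bool) (x : X) : P.aa g b x < P.m (g, b) :=
  Int.emod_lt_of_pos _ (by exact_mod_cast Nat.pos_of_ne_zero (NeZero.ne _))

def sI (x : X) : Lab p → ℤ
  | .inl (g, _) => J (.inl g) x - P.aa (.inl g) false x
  | .inr (.inl g) => J g x - P.aa g true x
  | .inr (.inr _) => x.1 - ∑ k, P.aa (.inr k) false x

def s0 (x : X) : Yb P.q := fun c => (P.sI x c : ZMod (P.q c))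

theorem sI_move (g : Gad p) (x : X) {T : ℤ} (c : Lab p) (hc : own c = some g)
    (h : ∀ b, (P.m (g, b) : ℤ) ∣ T) : P.sI (x - T • dir g) c = P.sI x c - T := by
  rcases c with ⟨g', d⟩ | g' | u
  · simp only [own, Option.some.injEq] at hc
    subst hc
    simp only [sI, J_move, P.aa_move _ _ _ (h _)]; ring
  · simp only [own, Option.some.injEq] at hc
    subst hc
    simp only [sI, J_move, P.aa_move _ _ _ (h _)]; ring
  · simp [own] at hc

theorem sI_kap (k : CG) (x : X) {T : ℤ} (h : ∀ d, (P.m d : ℤ) ∣ T) :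
    P.sI (x - T • dir (p := p) (.inr k)) kap = P.sI x kap - T := by
  simp only [sI, kap, P.aa_move' _ _ _ _ (h _)]
  simp [dir]; ring

variable [Fact p.Prime]

section Line
variable (S : Lab p → Prop) [DecidablePred S] (u : X)

noncomputable def lineM : Mode P.q :=
  ⟨fun c => if S c then P.e (.inl c) • u else 0, fun c => if S c then 0 else 1⟩

noncomputable def Tof (i : Yb P.q) : ℤ := ∑ c, if S c then ((i c).val : ℤ) * P.e (.inl c) else 0

theorem off_line1 (i : Yb P.q) : (off (P.lineM S u) i).1 = P.Tof S i • u := by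
  simp only [off, lineM, Tof, Finset.sum_smul]
  refine Finset.sum_congr rfl fun c _ => ?_
  split_ifs
  · rw [mul_smul]; simp
  · simp

theorem off_line2 (i : Yb P.q) (c : Lab p) (h : S c) : (off (P.lineM S u) i).2 c = 0 := by
  simp [off, lineM, h]

theorem off_line3 (i : Yb P.q) (c : Lab p) (h : ¬ S c) :
    red1 _ ((off (P.lineM S u) i).2 c) = i c := by
  simp [off, lineM, h]

theorem Tof_m (i : Yb P.q) (d : Dat p) : (P.m d : ℤ) ∣ P.Tof S i := by
  refine Finset.dvd_sum fun c _ => ?_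
  split_ifs
  · exact (P.l_m c d).mul_left _
  · simp

theorem Tof_q (i : Yb P.q) (c : Lab p) (h : ¬ S c) : (P.q c : ℤ) ∣ P.Tof S i := by
  refine Finset.dvd_sum fun c' _ => ?_
  split_ifs with h'
  · exact (P.l_q (c := c') (c' := c) (fun e => h (by rw [e]; exact h'))).mul_left _
  · simp

theorem Tof_cast (i : Yb P.q) (c : Lab p) (h : S c) : (P.Tof S i : ZMod (P.q c)) = i c := by
  classical
  unfold Tof
  rw [← Finset.add_sum_erase _ _ (Finset.mem_univ c), if_pos h]
  have h1 : ((∑ c' ∈ Finset.univ.erase c,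
      (if S c' then ((i c').val : ℤ) * P.e (.inl c') else 0) : ℤ) : ZMod (P.q c)) = 0 := by
    rw [ZMod.intCast_zmod_eq_zero_iff_dvd]
    refine Finset.dvd_sum fun c' hc' => ?_
    split_ifs
    · exact (P.l_q (Finset.ne_of_mem_erase hc').symm).mul_left _
    · simp
  have h2 : ((P.e (.inl c) : ℤ) : ZMod (P.q c)) = 1 := by
    have := (ZMod.intCast_zmod_eq_zero_iff_dvd _ (P.q c)).2 (P.l_q1 c)
    push_cast at this
    exact sub_eq_zero.1 this
  rw [Int.cast_add, h1, Int.cast_mul, h2]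
  simp

theorem match_line
    (hs : ∀ x T c, S c → (∀ d, (P.m d : ℤ) ∣ T) → P.sI (x - T • u) c = P.sI x c - T)
    (x : X) (y : Y P.q) (i : Yb P.q) :
    Match P.s0 ((x, y) - off (P.lineM S u) i) ↔
      ∀ c, (S c → i c = P.s0 x c - red P.q y c) ∧
        (¬ S c → i c = red P.q y c - P.s0 (x - P.Tof S i • u) c) := by
  simp only [Match, Prod.fst_sub, Prod.snd_sub, off_line1, funext_iff]
  refine forall_congr' fun c => ?_
  by_cases h : S c
  · simp only [red, Pi.sub_apply, P.off_line2 S u i c h, sub_zero, s0, hs x _ c h (P.Tof_m S i),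
      Int.cast_sub, P.Tof_cast S i c h, h, true_implies, not_true, false_implies, and_true]
    constructor <;> intro e <;> linear_combination e
  · simp only [red, Pi.sub_apply, map_sub, P.off_line3 S u i c h, h, false_implies, true_and,
      not_false_iff, true_implies]
    constructor <;> intro e <;> linear_combination -e

theorem sel_line
    (hs : ∀ x T c, S c → (∀ d, (P.m d : ℤ) ∣ T) → P.sI (x - T • u) c = P.sI x c - T) :
    Sel P.s0 (P.lineM S u) := by
  rintro ⟨x, y⟩
  have hT : ∀ i i' : Yb P.q, (∀ c, S c → i c = i' c) → P.Tof S i = P.Tof S i' := by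
    intro i i' h
    refine Finset.sum_congr rfl fun c _ => ?_
    split_ifs with hc
    · rw [h c hc]
    · rfl
  set i0 : Yb P.q := fun c => P.s0 x c - red P.q y c
  set i1 : Yb P.q := fun c => if S c then i0 c else red P.q y c - P.s0 (x - P.Tof S i0 • u) c
  have e1 : P.Tof S i1 = P.Tof S i0 := hT _ _ fun c hc => by simp [i1, hc]
  refine ⟨i1, (P.match_line S u hs x y i1).2 fun c => ⟨fun hc => by simp [i1, i0, hc],
    fun hc => by rw [e1]; simp only [i1, if_neg hc]⟩, fun i hi => ?_⟩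
  have hi' := (P.match_line S u hs x y i).1 hi
  have e2 : P.Tof S i = P.Tof S i0 := hT _ _ fun c hc => (hi' c).1 hc
  funext c
  by_cases hc : S c
  · simp [i1, i0, hc, (hi' c).1 hc]
  · simp [i1, hc, (hi' c).2 hc, e2]

end Line

theorem μ0_eq (g : Gad p) : P.μ0 g = P.lineM (fun c => own c = some g) (dir g) := rfl

theorem μ1_eq (k : CG) :
    P.μ1 (.inr k) = P.lineM (fun c => own c = some (.inr k) ∨ c = kap) (dir (p := p) (.inr k)) := by
  simp only [μ1, μ0, Mode.line, lineM, Mode.mk.injEq]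
  constructor
  · funext c
    by_cases hc : c = kap
    · subst hc; simp [dir]
    · simp [hc]
  · funext c
    by_cases hc : c = kap
    · subst hc; simp
    · simp [hc]

theorem hs0 (g : Gad p) : ∀ x T c, own c = some g → (∀ d, (P.m d : ℤ) ∣ T) →
    P.sI (x - T • dir g) c = P.sI x c - T :=
  fun x _ c hc h => P.sI_move g x c hc fun _ => h _

theorem hs1 (k : CG) : ∀ x T c, (own c = some (.inr k) ∨ c = kap) → (∀ d, (P.m d : ℤ) ∣ T) →
    P.sI (x - T • dir (p := p) (.inr k)) c = P.sI x c - T := by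
  rintro x T c (hc | rfl) h
  · exact P.hs0 _ x T c hc h
  · exact P.sI_kap k x h

theorem sel00 (g : Gad p) : Sel P.s0 (P.μ0 g) := P.sel_line _ _ (P.hs0 g)

theorem sel01 (g : Gad p) : Sel P.s0 (P.μ1 g) := by
  cases g with
  | inl v => exact sel_shift (P.sel00 _) (P.red_δV v)
  | inr k => rw [μ1_eq]; exact P.sel_line _ _ (P.hs1 k)

theorem idx0 (g : Gad p) (x : X) (y : Y P.q) (c : Lab p) (hc : own c = some g) :
    idx P.s0 (P.μ0 g) (x, y) c = P.s0 x c - red P.q y c :=
  (((P.match_line _ _ (P.hs0 g) x y _).1 (idx_spec (P.sel00 g) (x, y))) c).1 hc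

def hh (y : Y P.q) (c : Lab p) : ℤ := ((y c).val : ℤ) / P.q c
def zI (y : Y P.q) (c : Lab p) : ℤ := P.hh y c - (y c).val

theorem zI_congr {y y' : Y P.q} {c : Lab p} (h : y c = y' c) : P.zI y c = P.zI y' c := by
  simp [zI, hh, h]

theorem zI_shift (x : X) (y y' : Y P.q) (c : Lab p) (i : ZMod (P.q c))
    (hi : i = P.s0 x c - red P.q y c)
    (hy : y' c = y c - (i.val : ZMod (P.q c ^ 2)) * (P.q c : ZMod (P.q c ^ 2))) :
    P.zI y' c ≡ P.hh y c - P.sI x c [ZMOD P.q c] := by
  have h1 := val_sub_mul (y c) i.val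
  rw [← hy] at h1
  refine h1.trans ?_
  have h2 : (i.val : ℤ) ≡ P.sI x c - (y c).val [ZMOD P.q c] := by
    rw [← ZMod.intCast_eq_intCast_iff]
    simp [hi, s0, red, red1]
  have := ((Int.ModEq.refl (n := P.q c) (P.hh y c - (y c).val)).sub h2)
  convert this using 1
  · rfl
  · ring

variable (f : ℤ → ZMod p)

def δ0 (v : VG p) (x : X) : ZMod p := f (x.2 * (v.1 : ℕ) + x.1)

theorem δ0_move (v : VG p) (x : X) (T : ℤ) : δ0 f v (x - T • dir (p := p) (.inl v)) = δ0 f v x := by
  simp only [δ0, dir]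
  congr 1
  simp; ring

def nG : Gad p → X → ℕ
  | .inl v, x => P.q (dig v (δ0 f v x))
  | .inr _, _ => P.q kap

def σk (k : CG) (j : ℤ) : ℤ := (if k.2 then (P.L : ℤ) + 1 else 1) - j * k.1.toNat

def ζ : Gad p → X → Y P.q → ℤ
  | .inl v, x, y => P.zI y (dig v (δ0 f v x))
  | .inr k, x, _ => x.1 - ∑ k' ∈ Finset.univ.erase k, P.aa (.inr k') false x - P.σk k x.2

def DI (g : Gad p) : Bool → X → Y P.q → ℤ
  | false, x, y => FF (P.nG f g x) (P.m (g, false)) (P.q (star g)) (P.m (g, true))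
      (P.ζ f g x y - P.aa g false x) (P.zI y (star g))
  | true, x, y => GG (P.nG f g x) (P.m (g, false)) (P.q (star g)) (P.m (g, true))
      (P.ζ f g x y) (P.zI y (star g) - P.aa g true x)

def D0 (x : X) (y : Y P.q) : Dt P.m := fun d => (P.DI f d.1 d.2 x y : ZMod (P.m d))

theorem nG_move (g : Gad p) (x : X) (T : ℤ) : P.nG f g (x - T • dir g) = P.nG f g x := by
  cases g <;> simp only [nG, δ0_move]

theorem ζ_move (g : Gad p) (x : X) (y : Y P.q) {T : ℤ}
    (h : ∀ k, g = .inr k → (P.q kap : ℤ) ∣ T ∧ ∀ k', k' ≠ k → (P.m (.inr k', false) : ℤ) ∣ T) :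
    P.ζ f g (x - T • dir g) y ≡ P.ζ f g x y [ZMOD P.nG f g x] := by
  cases g with
  | inl v => simp only [ζ, δ0_move]; rfl
  | inr k =>
    obtain ⟨h1, h2⟩ := h k rfl
    have : ∑ k' ∈ Finset.univ.erase k, P.aa (.inr k') false (x - T • dir (p := p) (.inr k))
        = ∑ k' ∈ Finset.univ.erase k, P.aa (.inr k') false x :=
      Finset.sum_congr rfl fun k' hk' => P.aa_move' _ _ _ _ (h2 k' (Finset.ne_of_mem_erase hk'))
    simp only [ζ, nG, this]
    rw [Int.modEq_iff_dvd]
    convert h1 using 1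
    simp [dir]

theorem ζ_y (g : Gad p) (x : X) {y y' : Y P.q}
    (h : ∀ v, g = .inl v → y (dig v (δ0 f v x)) = y' (dig v (δ0 f v x))) :
    P.ζ f g x y = P.ζ f g x y' := by
  cases g with
  | inl v => exact P.zI_congr (h v rfl)
  | inr k => rfl

theorem DI_move (g : Gad p) (b : Bool) (x : X) (y : Y P.q) {T : ℤ} (h0 : (P.m (g, b) : ℤ) ∣ T)
    (h : ∀ k, g = .inr k → (P.q kap : ℤ) ∣ T ∧ ∀ k', k' ≠ k → (P.m (.inr k', false) : ℤ) ∣ T) :
    P.DI f g b (x - T • dir g) y = P.DI f g b x y := by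
  cases b
  · simp only [DI, nG_move, P.aa_move _ _ _ h0]
    exact FF_congr ((P.ζ_move f g x y h).sub_right _) rfl
  · simp only [DI, nG_move, P.aa_move _ _ _ h0]
    exact GG_congr (P.ζ_move f g x y h) rfl

theorem DI_y (g : Gad p) (b : Bool) (x : X) {y y' : Y P.q} (h0 : y (star g) = y' (star g))
    (h : ∀ v, g = .inl v → y (dig v (δ0 f v x)) = y' (dig v (δ0 f v x))) :
    P.DI f g b x y = P.DI f g b x y' := by
  cases b <;> simp only [DI, P.ζ_y f g x h, P.zI_congr h0]

theorem DI_y' (g : Gad p) (b : Bool) (x : X) {y y' : Y P.q}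
    (h : ∀ c, own c = some g → y c = y' c) : P.DI f g b x y = P.DI f g b x y' :=
  P.DI_y f g b x (h _ rfl) (fun v hv => h _ (by simp [hv]))

theorem W0 (g : Gad p) (b : Bool) (x : X) (y : Y P.q) :
    W P.s0 (P.D0 f) (P.μ0 g) (x, y) (g, b) = (P.DI f g b x y : ZMod (P.m (g, b))) := by
  simp only [W, D0, Prod.fst_sub, Prod.snd_sub, μ0_eq, off_line1]
  rw [P.DI_move f g b x _ (P.Tof_m _ _ _) (fun k hk => ⟨P.Tof_q _ _ _ (by simp),
    fun k' _ => P.Tof_m _ _ _⟩)]
  congr 1
  refine P.DI_y' f g b x fun c hc => ?_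
  rw [Pi.sub_apply, P.off_line2 _ _ _ c hc, sub_zero]

theorem Wb (x : X) (y : Y P.q) : ∃ y', red P.q y' = P.s0 x ∧
    (∀ c, y' c = y c - ((red P.q y c - P.s0 x c).val : ZMod (P.q c ^ 2))) ∧
    ∀ κ, red P.q κ = 0 → W P.s0 (P.D0 f) (box P.q) (x, y - κ) = P.D0 f x (y' - κ) := by
  have m1 := (match_box (s := P.s0) (x, y) _).2 rfl
  refine ⟨y - (off (box P.q) (red P.q y - P.s0 x)).2, by simpa [Match, off_box_fst] using m1,
    fun c => by simp [off, box], fun κ hκ => ?_⟩
  have m2 := (match_box (s := P.s0) (x, y - κ) (red P.q y - P.s0 x)).2 (by simp [red_sub, hκ])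
  rw [W_eq sel_box m2]
  simp only [Prod.fst_sub, Prod.snd_sub, off_box_fst, sub_zero, sub_right_comm]

theorem st_div (g : Gad p) (b : Bool) : ∀ k, g = .inr k → (P.q kap : ℤ) ∣ P.e (.inr (g, b)) ∧
    ∀ k', k' ≠ k → (P.m (.inr k', false) : ℤ) ∣ P.e (.inr (g, b)) := by
  rintro k rfl
  exact ⟨P.e_q _ _, fun k' hk' => P.e_m (by simp [hk'])⟩

theorem W1V (v : VG p) (x : X) (y : Y P.q) :
    W P.s0 (P.D0 f) (P.μ1 (.inl v)) (x, y) (.inl v, false) =
      ((FF (P.q (dig v (δ0 f v x))) (P.m (.inl v, false)) (P.q (star (.inl v))) (P.m (.inl v, true))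
        (P.hh y (dig v (δ0 f v x)) - J (.inl v) x) (P.zI y (star (.inl v))) : ℤ) :
          ZMod (P.m (.inl v, false))) := by
  simp only [μ1]
  rw [W_shift (P.sel00 _) (P.red_δV v), Prod.mk_sub_mk, sub_zero, W0]
  congr 1
  simp only [DI, nG, ζ]
  apply FF_congr
  · have := P.zI_shift x y (y - mulI (idx P.s0 (P.μ0 (.inl v)) (x, y)) (P.δV v))
      (dig v (δ0 f v x)) _ (P.idx0 (.inl v) x y _ rfl) (by
        simp only [mulI, δV, Pi.sub_apply]; rw [if_pos (by simp [isDig, dig])])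
    convert this.sub_right (P.aa (.inl v) false x) using 1
    simp only [sI, dig]; ring
  · rw [P.zI_congr (y' := y) (by simp [mulI, δV, isDig, star])]

theorem W1C (k : CG) (x : X) (y : Y P.q) :
    W P.s0 (P.D0 f) (P.μ1 (.inr k)) (x, y) (.inr k, false) =
      ((FF (P.q kap) (P.m (.inr k, false)) (P.q (star (.inr k))) (P.m (.inr k, true))
        ((y kap).val - P.σk k x.2) (P.zI y (star (.inr k))) : ℤ) :
          ZMod (P.m (.inr k, false))) := by
  have hm := idx_spec (P.sel01 (.inr k)) (x, y)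
  simp only [W, D0]
  generalize idx P.s0 (P.μ1 (.inr k)) (x, y) = i at hm ⊢
  rw [μ1_eq] at hm ⊢
  have h1 := congrFun hm kap
  have h0 := P.off_line2 (fun c => own c = some (.inr k) ∨ c = kap) (dir (p := p) (.inr k)) i kap
    (Or.inr rfl)
  simp only [Prod.fst_sub, Prod.snd_sub, off_line1, red, Pi.sub_apply, h0, sub_zero, s0] at h1 ⊢
  congr 1
  simp only [DI, nG, ζ]
  apply FF_congr
  · have h2 : ((y kap).val : ℤ) ≡ P.sI (x - P.Tof (fun c => own c = some (.inr k) ∨ c = kap) i •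
        dir (p := p) (.inr k)) kap [ZMOD P.q kap] := by
      rw [← ZMod.intCast_eq_intCast_iff, ← h1]
      simp [red1]
    convert (h2.symm.sub_right (P.σk k x.2)) using 1
    simp only [sI, kap]
    rw [← Finset.add_sum_erase _ _ (Finset.mem_univ k)]
    simp [dir]; ring
  · rw [P.zI_congr (y' := y) (by rw [Pi.sub_apply, P.off_line2 _ _ i _ (Or.inl rfl), sub_zero])]

theorem W2 (g : Gad p) (x : X) (y : Y P.q) :
    W P.s0 (P.D0 f) ((P.μ0 g).shift (sg P.q (star g))) (x, y) (g, true) =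
      ((GG (P.nG f g x) (P.m (g, false)) (P.q (star g)) (P.m (g, true))
        (P.ζ f g x y) (P.hh y (star g) - J g x) : ℤ) : ZMod (P.m (g, true))) := by
  rw [W_shift (P.sel00 _) (red_sg _), Prod.mk_sub_mk, sub_zero, W0]
  congr 1
  simp only [DI]
  apply GG_congr
  · rw [P.ζ_y f g x (y' := y) (fun v _ => by simp [mulI, sg, star, dig])]
  · have := P.zI_shift x y (y - mulI (idx P.s0 (P.μ0 g) (x, y)) (sg P.q (star g)))
      (star g) _ (P.idx0 g x y _ rfl) (by simp [mulI, sg])
    convert this.sub_right (P.aa g true x) using 1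
    simp only [sI, star]; ring

theorem nG_ge (g : Gad p) (x : X) : 2 * (P.m (g, false) : ℤ) ≤ P.nG f g x := by
  cases g with
  | inl v => exact_mod_cast P.hqd v _
  | inr k =>
    simp only [nG, P.qk]
    have h1 := P.hL k
    have h2 := P.hp
    have h3 : P.m (.inr k, false) ≤ ∑ k', P.m (.inr k', false) :=
      Finset.single_le_sum (f := fun k' => P.m (.inr k', false)) (fun _ _ => Nat.zero_le _)
        (Finset.mem_univ k)
    omega

theorem aa_step (g : Gad p) (b : Bool) (x : X) :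
    ((P.aa g b (x - P.e (.inr (g, b)) • dir g) : ℤ) : ZMod (P.m (g, b))) + 1 = P.aa g b x := by
  have := (ZMod.intCast_zmod_eq_zero_iff_dvd _ (P.m (g, b))).2 (P.e_m1 (g, b))
  simp only [aa, J_move, ZMod.intCast_mod]
  push_cast at this ⊢
  linear_combination -this

theorem sysF0 (hf : ∀ i j : ℤ, Rule p (fun n => f (j * n + i)))
    (hf' : ∀ m : ℤ, ¬ (p : ℤ) ∣ m → f m = m) : P.SysF P.s0 (P.D0 f) where
  sel0 := P.sel00
  sel1 := P.sel01
  ind := by
    rintro ⟨g, b⟩ c hc x h
    apply h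
    intro y
    obtain ⟨y', -, -, h3⟩ := P.Wb f x y
    have := h3 0 red_zero
    rw [sub_zero, sub_zero] at this
    rw [h3 _ (red_sg c), this]
    simp only [D0]
    congr 1
    refine P.DI_y' f g b x fun c' hc' => ?_
    have : c' ≠ c := fun e => hc (e ▸ hc')
    simp [sg, this]
  i1 := by
    rintro (v | k) ⟨x, y⟩
    · simp only [st, Prod.mk_sub_mk, sub_zero, W1V, δ0_move, J_move]
      congr 1
      refine FF_congr ?_ rfl
      rw [Int.modEq_iff_dvd]
      obtain ⟨t, ht⟩ := P.e_q (dig v (δ0 f v x)) (.inl v, false)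
      exact ⟨-t, by rw [ht]; ring⟩
    · simp only [st, Prod.mk_sub_mk, sub_zero, W1C]
      simp [dir]
  i2 := by
    rintro g ⟨x, y⟩
    simp only [st, Prod.mk_sub_mk, sub_zero, W2, nG_move, J_move]
    congr 1
    refine GG_congr (P.ζ_move f g x y (P.st_div g true)) ?_
    rw [Int.modEq_iff_dvd]
    obtain ⟨t, ht⟩ := P.e_q (star g) (g, true)
    exact ⟨-t, by rw [ht]; ring⟩
  i3 := by
    rintro g b ⟨x, y⟩
    simp only [st, Prod.mk_sub_mk, sub_zero, W0]
    rw [P.DI_move f g b x y (P.e_m (by simp)) (P.st_div g _)]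
  cl := by
    rintro g ⟨x, y⟩
    simp only [st, Prod.mk_sub_mk, sub_zero, W0]
    have hm : ∀ d, (0 : ℤ) < P.m d := fun d => by exact_mod_cast Nat.pos_of_ne_zero (NeZero.ne _)
    rcases FG (hm (g, false)) (hm (g, true)) (P.nG_ge f g x)
      (show 2 * (P.m (g, true) : ℤ) ≤ P.q (star g) by exact_mod_cast P.hqs g)
      (P.ζ f g x y) (P.zI y (star g)) with h | h
    · refine ⟨false, ?_⟩
      simp only [DI, nG_move]
      rw [FF_congr ((P.ζ_move f g x y (P.st_div g false)).sub_right _) rfl,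
        h _ (P.aa_nonneg _ _ _) (P.aa_lt _ _ _), h _ (P.aa_nonneg _ _ _) (P.aa_lt _ _ _)]
      push_cast
      rw [add_assoc, aa_step]
    · refine ⟨true, ?_⟩
      simp only [DI, nG_move]
      rw [GG_congr (P.ζ_move f g x y (P.st_div g true)) rfl,
        h _ (P.aa_nonneg _ _ _) (P.aa_lt _ _ _), h _ (P.aa_nonneg _ _ _) (P.aa_lt _ _ _)]
      push_cast
      rw [add_assoc, aa_step]
  per := by
    rintro v ⟨x, y⟩
    obtain ⟨y1, -, h1, h3⟩ := P.Wb f x y
    obtain ⟨y2, -, h2, h4⟩ := P.Wb f (x - P.Nn v • dir (p := p) (.inl v)) y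
    have e1 := h3 0 red_zero
    have e2 := h4 0 red_zero
    simp only [sub_zero, Prod.mk_sub_mk] at e1 e2 ⊢
    rw [e1, e2]
    simp only [D0]
    rw [P.DI_move f _ _ x _ (P.Nn_dat v _) (by simp)]
    congr 1
    refine P.DI_y' f _ _ x fun c hc => ?_
    rw [h1, h2]
    have : P.s0 (x - P.Nn v • dir (p := p) (.inl v)) c = P.s0 x c := by
      simp only [s0]
      rw [P.sI_move _ x c hc (P.Nn_dat v), Int.cast_sub,
        (ZMod.intCast_zmod_eq_zero_iff_dvd _ _).2 (P.Nn_lab v c hc), sub_zero]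
    rw [this]
  om := by
    intro ω hω x y
    obtain ⟨g, hg⟩ : ∃ g, ω g ≠ δ0 f g x := by
      by_contra hc
      push Not at hc
      refine hω ⟨fun n => by rw [hc, hc]; rfl, (hf x.1 x.2).congr fun n hn => ?_⟩
      simp [ext, hn, hc, δ0]
    refine ⟨g, ?_⟩
    obtain ⟨y', -, -, h3⟩ := P.Wb f x y
    have := h3 0 red_zero
    rw [sub_zero, sub_zero] at this
    rw [h3 _ (red_sg _), this]
    simp only [D0]
    congr 1
    refine P.DI_y f _ _ x (by simp [sg, star, dig]) fun v hv => ?_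
    obtain rfl : g = v := Sum.inl.inj hv
    simp [sg, dig, hg.symm]
  pk := by
    intro k ω hω x y
    obtain ⟨y', -, -, h3⟩ := P.Wb f x y
    have h4 := h3 0 red_zero
    rw [sub_zero, sub_zero] at h4
    by_cases hc : ∀ g, ω g = δ0 f g x
    · refine ⟨none, ?_⟩
      rw [h3 _ (red_sg _), h4]
      simp only [D0, gdO, DI, ζ, nG]
      congr 1
      apply FF_loc (by exact_mod_cast Nat.pos_of_ne_zero (NeZero.ne _))
      have hp2 : 2 ≤ p := (Fact.out : p.Prime).two_le
      have hn : k.1.toNat < p ^ 2 := by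
        have := Bool.toNat_le k.1
        nlinarith
      have hω' : ¬ (P.L < (f (x.2 * k.1.toNat + x.1)).val ↔ k.2 = true) := by
        simpa [PP, ext, hn, hc, δ0] using hω
      set w := x.2 * k.1.toNat + x.1
      set Sa := ∑ k', P.aa (.inr k') false x
      have e : x.1 - ∑ k' ∈ Finset.univ.erase k, P.aa (.inr k') false x - P.σk k x.2
          - P.aa (.inr k) false x = w - Sa - (if k.2 then (P.L : ℤ) + 1 else 1) := by
        simp only [Sa, w, σk]
        rw [← Finset.add_sum_erase _ _ (Finset.mem_univ k)]; ring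
      have hS0 : 0 ≤ Sa := Finset.sum_nonneg fun _ _ => P.aa_nonneg _ _ _
      have hS1 : Sa ≤ ((∑ k', P.m (.inr k', false) : ℕ) : ℤ) := by
        push_cast
        exact Finset.sum_le_sum fun _ _ => (P.aa_lt _ _ _).le
      have hL := P.hL k
      have hpL := P.hp
      rw [e, P.qk]
      have hw0 := Int.emod_nonneg w (show (p : ℤ) ≠ 0 by omega)
      have hw1 := Int.emod_lt_of_pos w (show (0 : ℤ) < p by omega)
      have hv : w % p = 0 ∨ ((f w).val : ℤ) = w % p := by
        by_cases hw : (p : ℤ) ∣ w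
        · exact Or.inl (Int.emod_eq_zero_of_dvd hw)
        · right
          rw [hf' w hw, ZMod.val_intCast]
      have key : ∀ r : ℤ, (P.m (.inr k, false) : ℤ) ≤ r → r < p →
          (r = w % p - Sa - (if k.2 then (P.L : ℤ) + 1 else 1) ∨
            r = w % p - Sa - (if k.2 then (P.L : ℤ) + 1 else 1) + p) →
          (P.m (.inr k, false) : ℤ) ≤ (w - Sa - (if k.2 then (P.L : ℤ) + 1 else 1)) % p := by
        intro r h1 h2 h3
        have : (w - Sa - (if k.2 then (P.L : ℤ) + 1 else 1)) % p = r % p := by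
          rcases h3 with rfl | rfl
          · simp [sub_sub]
          · simp [sub_sub]
        rw [this, Int.emod_eq_of_lt (by omega) h2]
        exact h1
      cases hk : k.2
      · simp only [hk, Bool.false_eq_true, if_false, iff_false, not_not] at hω' key ⊢
        rcases hv with hv | hv
        · exact key _ (by omega) (by omega) (Or.inr rfl)
        · exact key _ (by omega) (by omega) (Or.inl rfl)
      · simp only [hk, if_true, iff_true, not_lt] at hω' key ⊢
        exact key _ (by omega) (by omega) (Or.inr rfl)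
    · push Not at hc
      obtain ⟨g, hg⟩ := hc
      refine ⟨some g, ?_⟩
      rw [h3 _ (red_sg _), h4]
      simp only [D0, gdO, lbO]
      congr 1
      refine P.DI_y f _ _ x (by simp [sg, star, dig]) fun v hv => ?_
      obtain rfl : g = v := Sum.inl.inj hv
      simp [sg, dig, hg.symm]

theorem sys_exists : ∃ A, P.Sys A := by
  obtain ⟨f, h1, h2⟩ := sudoku_exists (p := p)
  exact ⟨_, (P.sys_iff _ _).2 (P.sysF0 f h1 h2)⟩

end Par

end Crest.Agent.R46
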