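import Crest.Agent.R46.Params

set_option autoImplicit false
set_option linter.unusedSectionVars false

namespace Crest.Agent.R46

theorem FD.lift {G G' : Type} [AddCommGroup G] [AddCommGroup G'] (π : G' →+ G)
    (hπ : Function.Surjective π) (κ : G') (hκ : ∀ z, π z = 0 ↔ ∃ k : ℤ, z = k • κ)
    {Sy : Set G → Prop} (h : FD Sy) (hex : ∃ A, Sy A) (hne : ¬ Sy ∅) :
    FD (fun B : Set G' => ∃ A, Sy A ∧ B = π ⁻¹' A) := by
  classical
  obtain ⟨𝒯, hfin, h𝒯⟩ := h
  obtain ⟨A0, hA0⟩ := hex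
  obtain ⟨τ0, hτ0⟩ : ∃ τ, τ ∈ 𝒯 := by
    by_contra hc
    exact hne ((h𝒯 ∅).1 fun τ hτ => absurd ⟨τ, hτ⟩ hc)
  obtain ⟨i0, -⟩ := (h𝒯 A0).2 hA0 τ0 hτ0 0
  set σ := Function.surjInv hπ
  have hσ : ∀ x, π (σ x) = x := Function.surjInv_eq hπ
  have hκ0 : π κ = 0 := (hκ κ).2 ⟨1, by simp⟩
  have key : ∀ {I : Type} (f : I → G) (f' : I → G') (A : Set G), (∀ i, π (f' i) = f i) →
      (TilI f' (π ⁻¹' A) ↔ TilI f A) := by
    intro I f f' A hf
    simp only [TilI, Set.mem_preimage, map_sub, hf]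
    exact ⟨fun h x => by simpa [hσ] using h (σ x), fun h x => h (π x)⟩
  have := hfin.to_subtype
  have := τ0.fin
  set f1 : τ0.I → G' := fun i => σ (τ0.f i) + if i = i0 then κ else 0
  have hf1 : ∀ i, π (f1 i) = τ0.f i := fun i => by
    simp only [f1, map_add, hσ]; split_ifs <;> simp [hκ0]
  have h1 : FD (fun B : Set G' => (∀ τ : 𝒯, TilI (fun i => σ (τ.1.f i)) B) ∧ TilI f1 B) :=
    (FD.all fun τ => by have := τ.1.fin; exact FD.til _).and (FD.til _)
  convert h1 using 2 with B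
  constructor
  · rintro ⟨A, hA, rfl⟩
    exact ⟨fun τ => (key _ _ A fun i => hσ _).2 ((h𝒯 A).2 hA τ.1 τ.2),
      (key _ _ A hf1).2 ((h𝒯 A).2 hA τ0 hτ0)⟩
  · rintro ⟨h2, h3⟩
    have h4 := h2 ⟨τ0, hτ0⟩
    have hinv : ∀ x, (x - κ ∈ B) = (x ∈ B) := by
      intro x
      apply propext
      constructor
      · intro hx
        obtain ⟨i, hi, -⟩ := h4 (x + σ (τ0.f i0))
        by_cases e : i = i0
        · subst e; simpa using hi
        · exact absurd ((h3 (x + σ (τ0.f i0))).unique (y₁ := i) (y₂ := i0) (by simpa [f1, e] using hi)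
            (by simpa [f1, ← sub_sub] using hx)) e
      · intro hx
        obtain ⟨i, hi, -⟩ := h3 (x + σ (τ0.f i0))
        by_cases e : i = i0
        · subst e; simpa [f1, ← sub_sub] using hi
        · exact absurd ((h4 (x + σ (τ0.f i0))).unique (y₁ := i) (y₂ := i0) (by simpa [f1, e] using hi)
            (by simpa using hx)) e
    have hinv' : ∀ (k : ℤ) x, (x - k • κ ∈ B) = (x ∈ B) := by
      intro k
      induction k using Int.induction_on with
      | zero => simp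
      | succ t ih => intro x; rw [add_smul, one_smul, ← sub_sub, hinv, ih]
      | pred t ih =>
        intro x
        rw [← hinv, ← ih x]; congr 1
        simp only [sub_smul, one_smul]; abel
    have hB : B = π ⁻¹' (π '' B) := by
      ext x
      refine ⟨fun hx => ⟨x, hx, rfl⟩, ?_⟩
      rintro ⟨x', hx', e⟩
      obtain ⟨k, hk⟩ := (hκ (x' - x)).1 (by rw [map_sub, e, sub_self])
      rw [← hinv' k x', ← hk, sub_sub_cancel] at hx'
      exact hx'
    refine ⟨π '' B, (h𝒯 _).1 fun τ hτ => ?_, hB⟩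
    rw [← key _ _ _ fun i => hσ (τ.f i), ← hB]
    exact h2 ⟨τ, hτ⟩

abbrev Z3 := Fin 3 → ℤ

theorem exists_system3 : ∃ Sy : Set Z3 → Prop, FD Sy ∧ (∃ A, Sy A) ∧
    ∀ A, Sy A → ∀ K : ℕ, 0 < K → ¬ ∀ a ∈ A, a + Pi.single 0 (K : ℤ) ∈ A := by
  obtain ⟨H, _, _, φ, Sy, hφ, hfd, hex, hap⟩ := exists_system
  let π : Z3 →+ (ℤ × ℤ) × H :=
    { toFun := fun v => ((v 0, v 1), φ (v 2))
      map_zero' := by simp
      map_add' := fun v w => by simp }
  have hπ : Function.Surjective π := by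
    rintro ⟨⟨a, b⟩, h⟩
    obtain ⟨t, rfl⟩ := hφ h
    exact ⟨![a, b, t], rfl⟩
  obtain ⟨M, hM⟩ := Int.subgroup_cyclic φ.ker
  have hκ : ∀ z, π z = 0 ↔ ∃ k : ℤ, z = k • (![0, 0, M] : Z3) := by
    intro z
    have : φ (z 2) = 0 ↔ ∃ k : ℤ, k • M = z 2 := by
      rw [← AddMonoidHom.mem_ker, hM, AddSubgroup.mem_closure_singleton]
    constructor
    · intro h
      simp only [π, AddMonoidHom.coe_mk, ZeroHom.coe_mk, Prod.mk_eq_zero, this] at h
      obtain ⟨⟨h0, h1⟩, k, hk⟩ := h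
      refine ⟨k, ?_⟩
      ext i
      fin_cases i <;> simp_all
    · rintro ⟨k, rfl⟩
      simp only [π, AddMonoidHom.coe_mk, ZeroHom.coe_mk, Prod.mk_eq_zero, this]
      simp
  refine ⟨_, hfd.lift π hπ _ hκ hex (fun h => hap ∅ h 1 one_pos (by simp)), ?_, ?_⟩
  · obtain ⟨A, hA⟩ := hex
    exact ⟨_, A, hA, rfl⟩
  · rintro _ ⟨A, hA, rfl⟩ K hK h
    refine hap A hA K hK fun a ha => ?_
    obtain ⟨v, rfl⟩ := hπ a
    have := h v ha
    rw [Set.mem_preimage, map_add] at this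
    convert this using 2
    simp [π]

end Crest.Agent.R46
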