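import Crest.Agent.R46.Intended

set_option autoImplicit false
set_option linter.unusedSectionVars false

namespace Crest.Agent.R46

theorem exists_primes (ι : Type) [Finite ι] (B : ℕ) :
    ∃ f : ι → ℕ, Function.Injective f ∧ ∀ i, (f i).Prime ∧ B < f i := by
  have hinf : {n : ℕ | n.Prime ∧ B < n}.Infinite := by
    have := Nat.infinite_setOfPred_prime.sdiff (Set.finite_le_nat B)
    convert this using 1
    ext n; simp
  obtain ⟨g, hg⟩ := exists_injective_nat ι
  exact ⟨fun i => hinf.natEmbedding _ (g i),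
    fun i j h => hg ((hinf.natEmbedding _).injective (Subtype.ext h)),
    fun i => (hinf.natEmbedding _ (g i)).2⟩

theorem crt_int {ι : Type} [Fintype ι] (a : ι → ℕ) (h : Pairwise fun i j => Nat.Coprime (a i) (a j))
    (r : ι → ℤ) : ∃ n : ℤ, ∀ i, (a i : ℤ) ∣ n - r i := by
  obtain ⟨z, hz⟩ := (ZMod.prodEquivPi a h).surjective (fun i => (r i : ZMod (a i)))
  obtain ⟨n, rfl⟩ := ZMod.intCast_surjective z
  refine ⟨n, fun i => ?_⟩
  rw [map_intCast] at hz
  have := congrFun hz i
  rw [← ZMod.intCast_zmod_eq_zero_iff_dvd]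
  push_cast
  rw [← this]; simp

theorem exists_par : ∃ p : ℕ, p.Prime ∧ 12 < p ∧ Nonempty (Par p) := by
  classical
  obtain ⟨f0, i0, h0⟩ := exists_primes (CG × Bool) 0
  set B0 := ∑ t, f0 t
  have b0 : ∀ t, f0 t ≤ B0 := fun t =>
    Finset.single_le_sum (f := f0) (fun _ _ => Nat.zero_le _) (Finset.mem_univ t)
  obtain ⟨p, hp1, hp⟩ := Nat.exists_infinite_primes (20 * B0 + 13)
  have : Fact p.Prime := ⟨hp⟩
  obtain ⟨f1, i1, h1⟩ := exists_primes (VG p × Bool) p
  set B1 := ∑ t, f1 t
  have b1 : ∀ t, f1 t ≤ B1 := fun t =>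
    Finset.single_le_sum (f := f1) (fun _ _ => Nat.zero_le _) (Finset.mem_univ t)
  obtain ⟨f2, i2, h2⟩ := exists_primes (Lab p) (2 * (B1 + p))
  set q : Lab p → ℕ := fun c => if c = kap then p else f2 c
  set m : Dat p → ℕ := fun d => match d with
    | (.inl v, b) => f1 (v, b)
    | (.inr k, b) => f0 (k, b)
  have hq : ∀ c, (q c).Prime := fun c => by
    simp only [q]; split_ifs
    · exact hp
    · exact (h2 c).1
  have hm : ∀ d, (m d).Prime := by
    rintro ⟨v | k, b⟩
    · exact (h1 _).1
    · exact (h0 _).1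
  have hmB : ∀ d, m d ≤ B1 + p := by
    rintro ⟨v | k, b⟩
    · exact (b1 _).trans (Nat.le_add_right _ _)
    · have := b0 (k, b)
      simp only [m]; omega
  have hmp : ∀ d, m d ≠ p := by
    rintro ⟨v | k, b⟩
    · exact (h1 _).2.ne'
    · have := b0 (k, b)
      simp only [m]; omega
  have qinj : Function.Injective q := by
    intro c c' h
    have a1 := (h2 c).2
    have a2 := (h2 c').2
    simp only [q] at h
    split_ifs at h with e e' e'
    · rw [e, e']
    · omega
    · omega
    · exact i2 h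
  have minj : Function.Injective m := by
    rintro ⟨v | k, b⟩ ⟨v' | k', b'⟩ h
    · have := i1 h
      simp only [Prod.mk.injEq] at this
      rw [this.1, this.2]
    · have a1 := (h1 (v, b)).2
      have a2 := b0 (k', b')
      simp only [m] at h; omega
    · have a1 := (h1 (v', b')).2
      have a2 := b0 (k, b)
      simp only [m] at h; omega
    · have := i0 h
      simp only [Prod.mk.injEq] at this
      rw [this.1, this.2]
  have qm : ∀ c d, q c ≠ m d := by
    intro c d
    have a1 := (h2 c).2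
    have a2 := hmB d
    have a3 := hmp d
    simp only [q]
    split_ifs <;> omega
  refine ⟨p, hp, by omega, ⟨⟨q, m, 5 * B0, fun c => (hq c).pos, fun d => (hm d).one_lt, by simp [q],
    fun r => ?_, fun g d => ?_, fun g => ?_, fun k => ?_, by omega⟩⟩⟩
  · obtain ⟨n, hn⟩ := crt_int (Sum.elim (fun c => q c ^ 2) m : Cmp p → ℕ) (by
      rintro (c | d) (c' | d') hne
      · exact Nat.Coprime.pow 2 2 ((Nat.coprime_primes (hq c) (hq c')).2
          fun h => hne (by rw [qinj h]))
      · exact Nat.Coprime.pow_left 2 ((Nat.coprime_primes (hq c) (hm d')).2 (qm c d'))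
      · exact Nat.Coprime.pow_right 2 ((Nat.coprime_primes (hm d) (hq c')).2 (qm c' d).symm)
      · exact (Nat.coprime_primes (hm d) (hm d')).2 fun h => hne (by rw [minj h])) r
    exact ⟨n, fun c => hn (.inl c), fun d => hn (.inr d)⟩
  · have a1 := (h2 (dig g d)).2
    have a2 := hmB (.inl g, false)
    have : dig g d ≠ kap := by simp [dig, kap]
    simp only [q, if_neg this]; omega
  · have a1 := (h2 (star g)).2
    have a2 := hmB (g, true)
    have : star g ≠ kap := by simp [star, kap]
    simp only [q, if_neg this]; omega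
  · have a1 := b0 (k, false)
    have a2 : ∑ k' : CG, m (.inr k', false) ≤ ∑ k' : CG, B0 :=
      Finset.sum_le_sum fun k' _ => b0 (k', false)
    simp only [Finset.sum_const, Finset.card_univ, Fintype.card_prod, Fintype.card_bool,
      smul_eq_mul] at a2
    simp only [m] at a2 ⊢
    omega

/-- The output of the first half: an aperiodic system of tiling equations on
`ℤ² × H` with `H` finite cyclic. -/
theorem exists_system : ∃ (H : Type) (_ : AddCommGroup H) (_ : Finite H) (φ : ℤ →+ H)
    (Sy : Set ((ℤ × ℤ) × H) → Prop), Function.Surjective φ ∧ FD Sy ∧ (∃ A, Sy A) ∧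
    ∀ A, Sy A → ∀ K : ℕ, 0 < K → ¬ ∀ a ∈ A, a + (((K : ℤ), 0), 0) ∈ A := by
  obtain ⟨p, hp, h12, ⟨P⟩⟩ := exists_par
  have : Fact p.Prime := ⟨hp⟩
  refine ⟨Y P.q × Dt P.m, inferInstance, inferInstance, zmultiplesHom _ 1, P.Sys, ?_, P.sys_fd,
    P.sys_exists, fun A hA K hK h => P.no_periodic h12 A hA K hK h⟩
  rintro ⟨y, d⟩
  obtain ⟨n, h1, h2⟩ := P.crt (Sum.elim (fun c => ((y c).val : ℤ)) (fun c => ((d c).val : ℤ)))
  refine ⟨n, ?_⟩
  ext c
  · have := (ZMod.intCast_zmod_eq_zero_iff_dvd _ _).2 (h1 c)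
    simpa [sub_eq_zero] using this
  · have := (ZMod.intCast_zmod_eq_zero_iff_dvd _ _).2 (h2 c)
    simpa [sub_eq_zero] using this

end Crest.Agent.R46
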