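import Crest.Agent.R46.Cell
import Crest.Prelude.Def_Tiling

set_option autoImplicit false
set_option linter.unusedSectionVars false

open MeasureTheory Crest.CombinatoricsR.Tiling

namespace Crest.Agent.R46

abbrev R3 := Fin 3 → ℝ

noncomputable def fl (x : R3) : Z3 := fun i => ⌊x i⌋

def up (a : Z3) : R3 := fun i => (a i : ℝ)

theorem fl_add (x : R3) (a : Z3) : fl (x + up a) = fl x + a := by
  funext i; simp [fl, up]

theorem fl_sub (x : R3) (a : Z3) : fl (x - up a) = fl x - a := by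
  funext i; simp [fl, up]

theorem mem_thick (T : Finset Z3) (x : R3) (hx : ∀ i (n : ℤ), x i ≠ n) :
    x ∈ cubeThickening T ↔ fl x ∈ T := by
  constructor
  · rintro ⟨z, hz, h⟩
    have : fl x = z := by
      funext i
      refine Int.floor_eq_iff.2 ⟨(h i).1, lt_of_le_of_ne (h i).2 ?_⟩
      simpa using hx i (z i + 1)
    rwa [this]
  · intro h
    exact ⟨_, h, fun i => ⟨Int.floor_le _, (Int.lt_floor_add_one _).le⟩⟩

theorem ae_nonint (b : R3) : ∀ᵐ x : R3, ∀ i (n : ℤ), (x - b) i ≠ n := by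
  rw [ae_all_iff]; intro i
  rw [ae_all_iff]; intro n
  filter_upwards [Measure.ae_eval_ne (fun _ : Fin 3 => (volume : Measure ℝ)) i (b i + n)] with x hx
  intro h
  apply hx
  simp only [Pi.sub_apply] at h
  linarith

theorem tilS_iff (T : Finset Z3) (A : Set Z3) : IsTilingBy T A ↔ TilS T A := by
  refine forall_congr' fun x => ?_
  constructor
  · rintro ⟨⟨a, t⟩, ⟨ha, ht, rfl⟩, hu⟩
    refine ⟨t, ⟨ht, by simpa using ha⟩, fun t' ht' => ?_⟩
    exact congrArg Prod.snd (hu (a + t - t', t') ⟨ht'.2, ht'.1, by simp⟩)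
  · rintro ⟨t, ⟨ht, ha⟩, hu⟩
    refine ⟨(x - t, t), ⟨ha, ht, by simp⟩, ?_⟩
    rintro ⟨a, t'⟩ ⟨ha', ht', rfl⟩
    have := hu t' ⟨ht', by simpa using ha'⟩
    subst this
    simp

theorem ae_of_til (T : Finset Z3) (A : Set Z3) (h : TilS T A) :
    IsAETilingBy (cubeThickening T) (up '' A) := by
  unfold IsAETilingBy
  filter_upwards [ae_nonint 0] with x hx
  have hm : ∀ a, x - up a ∈ cubeThickening T ↔ fl x - a ∈ T := by
    intro a
    rw [mem_thick, fl_sub]
    intro i n e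
    apply hx i (n + a i)
    simp only [Pi.sub_apply, up] at e
    simp only [Pi.sub_apply, Pi.zero_apply]
    push_cast; linarith
  obtain ⟨t, ⟨ht, ha⟩, hu⟩ := h (fl x)
  refine ⟨up (fl x - t), ⟨⟨_, ha, rfl⟩, (hm _).2 (by simpa using ht)⟩, ?_⟩
  rintro _ ⟨⟨a, ha', rfl⟩, h2⟩
  rw [← hu (fl x - a) ⟨(hm a).1 h2, by simpa using ha'⟩]
  simp

theorem countable_of_ae (T : Finset Z3) (hT : T.Nonempty) (B : Set R3)
    (h : IsAETilingBy (cubeThickening T) B) : B.Countable := by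
  obtain ⟨t, ht⟩ := hT
  set U : R3 → Set R3 := fun b => Set.univ.pi fun i => Set.Ioo (b i + t i) (b i + t i + 1)
  have hU : ∀ b, IsOpen (U b) := fun b => isOpen_set_pi Set.finite_univ fun i _ => isOpen_Ioo
  have hm : ∀ b x, x ∈ U b → x - b ∈ cubeThickening T := by
    intro b x hx
    refine ⟨t, ht, fun i => ?_⟩
    have := hx i trivial
    simp only [Set.mem_Ioo, Pi.sub_apply] at this ⊢
    constructor <;> linarith [this.1, this.2]
  refine Set.PairwiseDisjoint.countable_of_isOpen (s := U) (fun b hb b' hb' hne => ?_)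
    (fun b _ => hU b) (fun b _ => Set.univ_pi_nonempty_iff.2 fun i => Set.nonempty_Ioo.2 (by linarith))
  rw [Function.onFun, Set.disjoint_iff_inter_eq_empty]
  by_contra hc
  obtain ⟨x, ⟨h1, h2⟩, hx⟩ := (Measure.dense_of_ae h).inter_open_nonempty _ ((hU b).inter (hU b'))
    (Set.nonempty_iff_ne_empty.2 hc)
  exact hne (hx.unique ⟨hb, hm _ _ h1⟩ ⟨hb', hm _ _ h2⟩)

theorem ae_til (T : Finset Z3) (hT : T.Nonempty) (B : Set R3)
    (h : IsAETilingBy (cubeThickening T) B) :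
    ∀ᵐ θ : R3, TilS T ((fun b => - fl (θ - b)) '' B) := by
  have h1 : ∀ᵐ θ : R3, ∀ n : Z3, ∃! b, b ∈ B ∧ θ + up n - b ∈ cubeThickening T := by
    rw [ae_all_iff]; intro n
    exact (eventually_add_right_iff volume (up n)
      (p := fun x => ∃! b, b ∈ B ∧ x - b ∈ cubeThickening T)).2 h
  have h2 : ∀ᵐ θ : R3, ∀ b ∈ B, ∀ i (n : ℤ), (θ - b) i ≠ n :=
    (ae_ball_iff (countable_of_ae T hT B h)).2 fun b _ => ae_nonint b
  filter_upwards [h1, h2] with θ h1 h2 n
  have hm : ∀ b ∈ B, θ + up n - b ∈ cubeThickening T ↔ n + fl (θ - b) ∈ T := by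
    intro b hb
    rw [add_sub_right_comm, mem_thick, fl_add, add_comm]
    intro i m e
    apply h2 b hb i (m - n i)
    simp only [Pi.add_apply, up] at e
    push_cast; linarith
  obtain ⟨b, ⟨hb, hx⟩, hu⟩ := h1 n
  refine ⟨n + fl (θ - b), ⟨(hm b hb).1 hx, b, hb, by simp⟩, ?_⟩
  rintro t ⟨ht, b', hb', e⟩
  have e' : t = n + fl (θ - b') := by
    simp only at e
    rw [← sub_neg_eq_add, e]; simp
  rw [← hu b' ⟨hb', (hm b' hb').2 (e' ▸ ht)⟩, e']

theorem rigid {N : ℤ} (hN : 2 ≤ N) (b b' : R3) (i : Fin 3)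
    (h : ∀ᵐ θ : R3, N ∣ ⌊θ i - b' i⌋ - ⌊θ i - b i⌋) : ∃ n : ℤ, b i - b' i = n := by
  set δ := b i - b' i with hδ
  by_contra hc
  have hf : 0 < Int.fract δ := Int.fract_pos.2 fun e => hc ⟨_, e⟩
  have hf1 := Int.fract_lt_one δ
  have key : ∀ u v : ℝ, u < v → ∃ w, u < w ∧ w < v ∧ N ∣ ⌊w + δ⌋ - ⌊w⌋ := by
    intro u v huv
    obtain ⟨θ, h1, h2⟩ := (Measure.dense_of_ae h).inter_open_nonempty
      ((fun θ : R3 => θ i - b i) ⁻¹' Set.Ioo u v) (isOpen_Ioo.preimage (by fun_prop))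
      ⟨fun _ => (u + v) / 2 + b i, by simp; constructor <;> linarith⟩
    refine ⟨θ i - b i, h1.1, h1.2, ?_⟩
    rw [show θ i - b i + δ = θ i - b' i by rw [hδ]; ring]
    exact h2
  obtain ⟨w, a1, a2, a3⟩ := key 0 (1 - Int.fract δ) (by linarith)
  obtain ⟨w', b1, b2, b3⟩ := key (1 - Int.fract δ) 1 (by linarith)
  have hδ' := Int.floor_add_fract δ
  rw [Int.floor_eq_iff.2 (⟨by simp; linarith, by simp; linarith⟩ : ((0 : ℤ) : ℝ) ≤ w ∧ w < (0 : ℤ) + 1),
    Int.floor_eq_iff.2 (⟨by linarith, by linarith⟩ : ((⌊δ⌋ : ℤ) : ℝ) ≤ w + δ ∧ w + δ < (⌊δ⌋ : ℤ) + 1)]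
    at a3
  rw [Int.floor_eq_iff.2 (⟨by simp; linarith, by simp; linarith⟩ : ((0 : ℤ) : ℝ) ≤ w' ∧ w' < (0 : ℤ) + 1),
    Int.floor_eq_iff.2 (⟨by push_cast; linarith, by push_cast; linarith⟩ :
      ((⌊δ⌋ + 1 : ℤ) : ℝ) ≤ w' + δ ∧ w' + δ < (⌊δ⌋ + 1 : ℤ) + 1)] at b3
  have : N ∣ 1 := by simpa using dvd_sub b3 a3
  have := Int.le_of_dvd one_pos this
  omega

theorem lattice_axis (β : Module.Basis (Fin 3) ℝ R3) (h : ∀ j i, ∃ n : ℤ, β j i = n) :
    ∃ K : ℕ, 0 < K ∧ up (Pi.single 0 (K : ℤ)) ∈ Submodule.span ℤ (Set.range β) := by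
  choose M hM using h
  set A : Matrix (Fin 3) (Fin 3) ℤ := Matrix.of M
  have hdet : A.det ≠ 0 := by
    have h1 : IsUnit (A.map (Int.castRingHom ℝ)) := by
      rw [← Matrix.linearIndependent_rows_iff_isUnit]
      have : (A.map (Int.castRingHom ℝ)).row = β := by
        funext j i
        simp [A, hM, Matrix.row]
      rw [this]
      exact β.linearIndependent
    rw [Matrix.isUnit_iff_isUnit_det] at h1
    intro h0
    have := (Int.castRingHom ℝ).map_det A
    rw [h0, map_zero, RingHom.mapMatrix_apply] at this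
    rw [← this] at h1
    exact not_isUnit_zero h1
  have hv : up (Pi.single 0 A.det) ∈ Submodule.span ℤ (Set.range β) := by
    have : up (Pi.single 0 A.det) = ∑ j, A.adjugate 0 j • β j := by
      funext i
      have := congrFun (congrFun (Matrix.adjugate_mul A) 0) i
      simp only [Matrix.mul_apply, Matrix.smul_apply, Matrix.one_apply, smul_eq_mul] at this
      simp only [up, Finset.sum_apply, Pi.smul_apply, hM]
      have e : (Pi.single 0 A.det : Z3) i = ∑ j, A.adjugate 0 j * M j i := by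
        rw [show ∑ j, A.adjugate 0 j * M j i = ∑ j, A.adjugate 0 j * A j i from rfl, this]
        by_cases hi : i = 0
        · subst hi; simp
        · simp [hi, Ne.symm hi]
      rw [e]; push_cast; simp
    rw [this]
    exact Submodule.sum_mem _ fun j _ => Submodule.smul_mem _ _ (Submodule.subset_span ⟨j, rfl⟩)
  refine ⟨A.det.natAbs, Int.natAbs_pos.2 hdet, ?_⟩
  rcases Int.natAbs_eq A.det with e | e
  · rwa [← e]
  · have : up (Pi.single 0 (A.det.natAbs : ℤ)) = - up (Pi.single 0 A.det) := by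
      funext i
      conv_rhs => rw [e]
      simp [up, Pi.single_neg]
    rw [this]
    exact Submodule.neg_mem _ hv

theorem final : ∃ T : Finset (Fin 3 → ℤ), T.Nonempty ∧
      (∃ A : Set (Fin 3 → ℤ), IsTilingBy T A) ∧
      (∀ A : Set (Fin 3 → ℤ), IsTilingBy T A → ¬ IsFullyPeriodic A) ∧
      (∃ B : Set (Fin 3 → ℝ), IsAETilingBy (cubeThickening T) B) ∧
      ∀ B : Set (Fin 3 → ℝ), IsAETilingBy (cubeThickening T) B → ¬ IsLatticePeriodic B := by
  obtain ⟨T0, N, hfin, hne, hN, ⟨A0, hA0⟩, hap⟩ := exists_tile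
  obtain ⟨T, rfl⟩ := hfin.exists_finset_coe
  have hT : T.Nonempty := hne
  refine ⟨T, hT, ⟨A0, (tilS_iff T A0).2 hA0⟩, ?_, ⟨_, ae_of_til T A0 hA0⟩, ?_⟩
  · rintro A hA ⟨H, hH, hper⟩
    refine (hap A ((tilS_iff T A).1 hA)).2 H.index (Nat.pos_of_ne_zero hH.index_ne_zero)
      fun a ha => ?_
    have := hper _ (H.nsmul_index_mem (Pi.single 0 1)) a ha
    rw [add_comm] at this
    convert this using 2
    funext i
    by_cases hi : i = 0
    · subst hi; simp
    · simp [hi]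
  · rintro B hB ⟨β, hβ⟩
    have h1 := ae_til T hT B hB
    obtain ⟨θ, hθ⟩ := h1.exists
    obtain ⟨t, ⟨-, b0, hb0, -⟩, -⟩ := hθ 0
    have hint : ∀ j i, ∃ n : ℤ, β j i = n := by
      intro j i
      have hb1 := hβ (β j) (Submodule.subset_span ⟨j, rfl⟩) b0 hb0
      have := rigid hN (β j + b0) b0 i (by
        filter_upwards [h1] with θ hθ
        have := (hap _ hθ).1 _ ⟨_, hb1, rfl⟩ _ ⟨_, hb0, rfl⟩ i
        simp only [Pi.neg_apply, fl, Pi.sub_apply] at this
        convert this using 1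
        ring)
      simpa using this
    obtain ⟨K, hK, hm⟩ := lattice_axis β hint
    refine (hap _ hθ).2 K hK ?_
    rintro _ ⟨b, hb, rfl⟩
    refine ⟨_, hβ _ hm b hb, ?_⟩
    simp only
    rw [add_comm, ← sub_sub, fl_sub]
    abel

end Crest.Agent.R46
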