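import Mathlib

set_option autoImplicit false
set_option linter.unusedSectionVars false

namespace Crest.Agent.R46

/-- indexed tiling -/
def TilI {G I : Type*} [AddCommGroup G] (f : I → G) (A : Set G) : Prop :=
  ∀ x, ∃! i, x - f i ∈ A

structure Tile (G : Type) where
  I : Type
  fin : Finite I
  f : I → G

/-- properties defined by finitely many tiling equations -/
def FD {G : Type} [AddCommGroup G] (P : Set G → Prop) : Prop :=
  ∃ 𝒯 : Set (Tile G), 𝒯.Finite ∧ ∀ A, (∀ τ ∈ 𝒯, TilI τ.f A) ↔ P A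

section FD
variable {G : Type} [AddCommGroup G]

theorem FD.til {I : Type} [Finite I] (f : I → G) : FD (TilI f) :=
  ⟨{⟨I, inferInstance, f⟩}, Set.finite_singleton _, fun A => by simp⟩

theorem FD.and {P Q : Set G → Prop} (hP : FD P) (hQ : FD Q) : FD (fun A => P A ∧ Q A) := by
  obtain ⟨S, hS, h1⟩ := hP
  obtain ⟨T, hT, h2⟩ := hQ
  refine ⟨S ∪ T, hS.union hT, fun A => ?_⟩
  simp only [← h1, ← h2, Set.mem_union, or_imp, forall_and]

theorem FD.all {ι : Type*} [Finite ι] {P : ι → Set G → Prop} (h : ∀ i, FD (P i)) :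
    FD (fun A => ∀ i, P i A) := by
  choose S hS h1 using h
  refine ⟨⋃ i, S i, Set.finite_iUnion hS, fun A => ?_⟩
  simp only [Set.mem_iUnion, forall_exists_index, ← h1]
  exact ⟨fun h i τ hτ => h τ i hτ, fun h τ i hτ => h i τ hτ⟩

theorem FD.imp {P : Set G → Prop} (c : Prop) (h : FD P) : FD (fun A => c → P A) := by
  have : FD (fun A => ∀ _ : PLift c, P A) := FD.all (fun _ => h)
  convert this using 2
  exact ⟨fun h i => h i.down, fun h i => h ⟨i⟩⟩

end FD

theorem cyc_unique {L : Type} [Finite L] (nxt : L → L) (ht : ∀ a b, ∃ n, nxt^[n] a = b)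
    (φ : L → Bool → Bool) (j0 : L) (h0 : φ j0 true = φ j0 false) :
    ∃! ε : L → Bool, ∀ j, ε (nxt j) = φ j (ε j) := by
  set Ψ : (L → Bool) → (L → Bool) := fun ε j => xor (ε (nxt j)) (φ j (ε j))
  have hinj : Function.Injective Ψ := by
    intro ε ε' h
    have h1 : ∀ j, ε j = ε' j → ε (nxt j) = ε' (nxt j) := by
      intro j hj
      have := congrFun h j
      simp only [Ψ, hj] at this
      exact Bool.xor_left_inj.1 this
    have h2 : ε (nxt j0) = ε' (nxt j0) := by
      have := congrFun h j0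
      simp only [Ψ] at this
      have e : φ j0 (ε j0) = φ j0 (ε' j0) := by
        cases ε j0 <;> cases ε' j0 <;> simp [h0]
      rw [e] at this
      exact Bool.xor_left_inj.1 this
    have h3 : ∀ n, ε (nxt^[n] (nxt j0)) = ε' (nxt^[n] (nxt j0)) := by
      intro n
      induction n with
      | zero => exact h2
      | succ n ih => rw [Function.iterate_succ_apply']; exact h1 _ ih
    funext j
    obtain ⟨n, rfl⟩ := ht (nxt j0) j
    exact h3 n
  have key : ∀ ε : L → Bool, (∀ j, ε (nxt j) = φ j (ε j)) ↔ Ψ ε = fun _ => false := by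
    intro ε
    rw [funext_iff]
    refine forall_congr' fun j => ?_
    simp only [Ψ]
    cases ε (nxt j) <;> cases φ j (ε j) <;> simp
  obtain ⟨ε, hε⟩ := Finite.surjective_of_injective hinj (fun _ => false)
  exact ⟨ε, (key ε).2 hε, fun ε' h => hinj (((key ε').1 h).trans hε.symm)⟩

theorem inv_sum {P α L : Type*} [AddCommGroup P] (h : P → α) (g : L → P) (S : Finset L)
    (hg : ∀ j ∈ S, ∀ p, h (p - g j) = h p) : ∀ p, h (p - ∑ j ∈ S, g j) = h p := by
  classical
  induction S using Finset.induction_on with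
  | empty => simp
  | insert a S ha ih =>
    intro p
    rw [Finset.sum_insert ha, ← sub_sub, ih (fun j hj => hg j (Finset.mem_insert_of_mem hj)),
      hg a (Finset.mem_insert_self _ _)]

theorem inv_nsmul {P α : Type*} [AddCommGroup P] (h : P → α) (g : P)
    (hg : ∀ p, h (p - g) = h p) (n : ℕ) : ∀ p, h (p - n • g) = h p := by
  induction n with
  | zero => simp
  | succ n ih => intro p; rw [succ_nsmul, ← sub_sub, hg, ih]

abbrev X := ℤ × ℤ

section
variable {Lab Dat : Type} (q : Lab → ℕ) (m : Dat → ℕ)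

abbrev Y := ∀ c, ZMod (q c ^ 2)
abbrev Yb := ∀ c, ZMod (q c)
abbrev Dt := ∀ d, ZMod (m d)
abbrev Pt := X × Y q
abbrev Gp := X × (Y q × Dt m)

def red1 (n : ℕ) : ZMod (n ^ 2) →+* ZMod n := ZMod.castHom (dvd_pow_self n two_ne_zero) (ZMod n)

def red (y : Y q) : Yb q := fun c => red1 (q c) (y c)

structure Mode where
  pos : Lab → X
  lab : Y q

def box : Mode q := ⟨0, 1⟩

def Aset (s : X → Yb q) (D : X → Y q → Dt m) : Set (Gp q m) :=
  {g | red q g.2.1 = s g.1 ∧ g.2.2 = D g.1 g.2.1}

variable {q m}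

theorem red1_self (n : ℕ) : red1 n (n : ZMod (n ^ 2)) = 0 := by
  rw [map_natCast]; exact ZMod.natCast_self n

theorem red_sub (y y' : Y q) : red q (y - y') = red q y - red q y' := by
  funext c; simp [red]

theorem red_add (y y' : Y q) : red q (y + y') = red q y + red q y' := by
  funext c; simp [red]

theorem red_zero : red q 0 = 0 := by funext c; simp [red]

theorem ker_red1 {n : ℕ} [NeZero n] (y : ZMod (n ^ 2)) (h : red1 n y = 0) :
    ∃ t : ℕ, y = t • (n : ZMod (n ^ 2)) := by
  have h1 : y = (y.val : ZMod (n ^ 2)) := (ZMod.natCast_zmod_val y).symm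
  rw [h1, map_natCast, ZMod.natCast_eq_zero_iff] at h
  obtain ⟨t, ht⟩ := h
  exact ⟨t, by rw [h1, ht]; push_cast; simp [mul_comm]⟩

variable [Fintype Lab] [DecidableEq Lab] [∀ c, NeZero (q c)]

/-- the kernel generator in component `c` -/
def sg (q : Lab → ℕ) (c : Lab) : Y q := Pi.single c (q c : ZMod (q c ^ 2))

theorem red_sg (c : Lab) : red q (sg q c) = 0 := by
  funext c'
  by_cases h : c' = c
  · subst h; simp [red, sg]
  · simp [red, sg, h]

theorem inv_kernel {α : Type*} (h : Y q → α) (S : Lab → Prop)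
    (hS : ∀ c, S c → ∀ y, h (y - sg q c) = h y) (κ : Y q) (h0 : red q κ = 0)
    (h1 : ∀ c, ¬ S c → κ c = 0) (y : Y q) : h (y - κ) = h y := by
  have : κ = ∑ c, Pi.single c (κ c) := (Finset.univ_sum_single κ).symm
  rw [this]
  apply inv_sum
  intro c _ p
  by_cases hc : S c
  · obtain ⟨t, ht⟩ := ker_red1 (κ c) (congrFun h0 c)
    have : (Pi.single c (κ c) : Y q) = t • sg q c := by
      rw [ht, sg, Pi.single_smul]
    rw [this]
    exact inv_nsmul h _ (hS c hc) t p
  · simp [h1 c hc]

def off (μ : Mode q) (i : Yb q) : Pt q :=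
  (∑ c, (i c).val • μ.pos c, fun c => ((i c).val : ZMod (q c ^ 2)) * μ.lab c)

theorem off_zero (μ : Mode q) : off μ 0 = 0 := by
  ext <;> simp [off]

def Match (s : X → Yb q) (p : Pt q) : Prop := red q p.2 = s p.1

def Sel (s : X → Yb q) (μ : Mode q) : Prop := ∀ p, ∃! i, Match s (p - off μ i)

open Classical in
noncomputable def idx (s : X → Yb q) (μ : Mode q) (p : Pt q) : Yb q :=
  if h : ∃ i, Match s (p - off μ i) then h.choose else 0

noncomputable def W (s : X → Yb q) (D : X → Y q → Dt m) (μ : Mode q) (p : Pt q) : Dt m :=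
  D (p - off μ (idx s μ p)).1 (p - off μ (idx s μ p)).2

variable {s : X → Yb q} {D : X → Y q → Dt m} {μ : Mode q}

theorem idx_spec (h : Sel s μ) (p : Pt q) : Match s (p - off μ (idx s μ p)) := by
  have h1 : ∃ i, Match s (p - off μ i) := (h p).exists
  rw [idx, dif_pos h1]
  exact h1.choose_spec

theorem idx_eq (h : Sel s μ) {p : Pt q} {i : Yb q} (hi : Match s (p - off μ i)) : idx s μ p = i :=
  (h p).unique (idx_spec h p) hi

theorem W_eq (h : Sel s μ) {p : Pt q} {i : Yb q} (hi : Match s (p - off μ i)) :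
    W s D μ p = D (p - off μ i).1 (p - off μ i).2 := by
  rw [W, idx_eq h hi]

theorem W_match (h : Sel s μ) {p : Pt q} (hp : Match s p) : W s D μ p = D p.1 p.2 := by
  rw [W_eq h (i := 0) (by rwa [off_zero, sub_zero]), off_zero, sub_zero]

theorem red_off_box (i : Yb q) : red q (off (box q) i).2 = i := by
  funext c; simp [red, off, box]

theorem off_box_fst (i : Yb q) : (off (box q) i).1 = 0 := by
  simp [off, box]

theorem match_box (p : Pt q) (i : Yb q) :
    Match s (p - off (box q) i) ↔ i = red q p.2 - s p.1 := by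
  simp only [Match, Prod.snd_sub, Prod.fst_sub, red_sub, red_off_box, off_box_fst, sub_zero]
  constructor
  · intro h; rw [← h]; abel
  · intro h; rw [h]; abel

theorem sel_box : Sel s (box q) := fun p =>
  ⟨red q p.2 - s p.1, (match_box p _).2 rfl, fun i hi => (match_box p i).1 hi⟩

def baseT (m : Dat → ℕ) (μ : Mode q) : Yb q × Dt m → Gp q m :=
  fun t => ((off μ t.1).1, (off μ t.1).2, t.2)

theorem til_base : TilI (baseT m μ) (Aset q m s D) ↔ Sel s μ := by
  constructor
  · intro h p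
    obtain ⟨t, ht, hu⟩ := h (p.1, p.2, 0)
    refine ⟨t.1, ht.1, fun i hi => ?_⟩
    have := hu (i, - D (p - off μ i).1 (p - off μ i).2) ⟨hi, by simp [baseT]⟩
    rw [← this]
  · intro h g
    obtain ⟨i, hi, hu⟩ := h (g.1, g.2.1)
    refine ⟨(i, g.2.2 - D (g.1 - (off μ i).1) (g.2.1 - (off μ i).2)), ⟨hi, by simp [baseT]⟩, ?_⟩
    rintro ⟨i', d⟩ ⟨h1, h2⟩
    have e : i' = i := hu i' h1
    subst e
    simp only [baseT, Prod.snd_sub, Prod.fst_sub] at h2
    rw [← h2]; simp

def modT (m : Dat → ℕ) (c : Lab) : Yb q × Dt m → Gp q m :=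
  fun t => (0, (off (box q) t.1).2 + (if t.1 = 0 then sg q c else 0), t.2)

theorem til_mod (c : Lab) : TilI (modT m c) (Aset q m s D) := by
  intro g
  have hr : ∀ i : Yb q, red q (g.2.1 - ((off (box q) i).2 + (if i = 0 then sg q c else 0)))
      = red q g.2.1 - i := by
    intro i
    rw [red_sub, red_add, red_off_box]
    split_ifs <;> simp [red_sg, red_zero]
  refine ⟨(red q g.2.1 - s g.1, g.2.2 - D g.1 (g.2.1 - ((off (box q) (red q g.2.1 - s g.1)).2 +
    (if red q g.2.1 - s g.1 = 0 then sg q c else 0)))), ⟨?_, by simp [modT]⟩, ?_⟩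
  · simp only [modT, Prod.snd_sub, Prod.fst_sub, hr]; simp
  · rintro ⟨i, d⟩ ⟨h1, h2⟩
    simp only [modT, Prod.snd_sub, Prod.fst_sub, hr, sub_zero] at h1 h2
    have e : i = red q g.2.1 - s g.1 := by rw [← h1]; abel
    subst e
    rw [← h2]; simp

theorem struct_of_til (A : Set (Gp q m)) (h0 : TilI (baseT m (box q)) A)
    (h1 : ∀ c, TilI (modT m c) A) : ∃ s D, A = Aset q m s D := by
  classical
  set Pj : X → Y q → Prop := fun x y => ∃ d, (x, y, d) ∈ A with hPj
  have hu : ∀ x y d d', (x, y, d) ∈ A → (x, y, d') ∈ A → d = d' := by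
    intro x y d d' e e'
    have := (h0 (x, y, 0)).unique (y₁ := (0, -d)) (y₂ := (0, -d'))
      (by simpa [baseT, off_zero] using e) (by simpa [baseT, off_zero] using e')
    simpa using this
  have hb : ∀ x y, ∃! i, Pj x (y - (off (box q) i).2) := by
    intro x y
    obtain ⟨t, ht, hu⟩ := h0 (x, y, 0)
    refine ⟨t.1, ⟨-t.2, by simpa [baseT, off_box_fst] using ht⟩, ?_⟩
    rintro i ⟨d, hd⟩
    have := hu (i, -d) (by simpa [baseT, off_box_fst] using hd)
    rw [← this]
  have hm : ∀ c x y, ∃! i, Pj x (y - ((off (box q) i).2 + (if i = 0 then sg q c else 0))) := by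
    intro c x y
    obtain ⟨t, ht, hu⟩ := h1 c (x, y, 0)
    refine ⟨t.1, ⟨-t.2, by simpa [modT] using ht⟩, ?_⟩
    rintro i ⟨d, hd⟩
    have := hu (i, -d) (by simpa [modT] using hd)
    rw [← this]
  have hinv : ∀ x c y, Pj x (y - sg q c) = Pj x y := by
    intro x c y
    apply propext
    constructor
    · intro h
      obtain ⟨i, hi, -⟩ := hb x y
      by_cases e : i = 0
      · subst e; simpa [off_zero] using hi
      · exact absurd ((hm c x y).unique (y₁ := i) (y₂ := 0) (by simpa [e] using hi)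
          (by simpa [off_zero] using h)) e
    · intro h
      obtain ⟨i, hi, -⟩ := hm c x y
      by_cases e : i = 0
      · subst e; simpa [off_zero] using hi
      · exact absurd ((hb x y).unique (y₁ := i) (y₂ := 0) (by simpa [e] using hi)
          (by simpa [off_zero] using h)) e
  have hker : ∀ x y y', red q y = red q y' → Pj x y' → Pj x y := by
    intro x y y' e h
    have := inv_kernel (Pj x) (fun _ => True) (fun c _ => hinv x c) (y' - y)
      (by rw [red_sub, e, sub_self]) (by simp) y'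
    rw [sub_sub_cancel] at this
    rwa [this]
  have hex : ∀ x, ∃ y, Pj x y := fun x => by
    obtain ⟨i, hi, -⟩ := hb x 0
    exact ⟨_, hi⟩
  choose y0 hy0 using hex
  have hiff : ∀ x y, Pj x y ↔ red q y = red q (y0 x) := by
    intro x y
    refine ⟨fun h => ?_, fun h => hker x y _ h (hy0 x)⟩
    have := (hb x y).unique (y₁ := red q y - red q (y0 x)) (y₂ := 0)
      (hker x _ _ (by rw [red_sub, red_off_box]; abel) (hy0 x)) (by simpa [off_zero] using h)
    exact sub_eq_zero.1 this
  refine ⟨fun x => red q (y0 x), fun x y => if h : Pj x y then h.choose else 0, ?_⟩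
  ext ⟨x, y, d⟩
  simp only [Aset, Set.mem_ofPred_eq]
  constructor
  · intro h
    have hp : Pj x y := ⟨d, h⟩
    refine ⟨(hiff x y).1 hp, ?_⟩
    rw [dif_pos hp]
    exact hu x y _ _ h hp.choose_spec
  · rintro ⟨e1, e2⟩
    have hp : Pj x y := (hiff x y).2 e1
    rw [dif_pos hp] at e2
    rw [e2]; exact hp.choose_spec

section Clause
variable {L : Type} [Fintype L] (nxt : L → L) (lit : L → Dat) (g : L → Pt q) (Γ : Dt m)

def gsum (ε : L → Bool) : Pt q := ∑ j, if ε j then g j else 0

def Cond (ε : L → Bool) (d : Dt m) : Prop :=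
  ∀ j, (d (lit j) = if ε j then Γ (lit j) else 0) ↔ ε (nxt j) = true

def clauseT (μ : Mode q) : {t : (L → Bool) × Yb q × Dt m // Cond nxt lit Γ t.1 t.2.2} → Gp q m :=
  fun t => ((gsum g t.1.1 + off μ t.1.2.1).1, (gsum g t.1.1 + off μ t.1.2.1).2, t.1.2.2)

theorem til_clause_aux (h : Sel s μ) : TilI (clauseT nxt lit g Γ μ) (Aset q m s D) ↔
    ∀ (p : Pt q) (z : Dt m), ∃! ε, Cond nxt lit Γ ε (z - W s D μ (p - gsum g ε)) := by
  have hmem : ∀ (p : Pt q) (z : Dt m) t, ((p.1, p.2, z) : Gp q m) - clauseT nxt lit g Γ μ t ∈ Aset q m s D ↔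
      t.1.2.1 = idx s μ (p - gsum g t.1.1) ∧ t.1.2.2 = z - W s D μ (p - gsum g t.1.1) := by
    rintro p z ⟨⟨ε, i, d⟩, hc⟩
    have e : ((p.1, p.2, z) : Gp q m) - clauseT nxt lit g Γ μ ⟨⟨ε, i, d⟩, hc⟩
        = ((p - gsum g ε - off μ i).1, (p - gsum g ε - off μ i).2, z - d) := by
      simp [clauseT, sub_sub]
    rw [e]
    constructor
    · rintro ⟨h1, h2⟩
      refine ⟨(idx_eq h h1).symm, ?_⟩
      rw [W_eq h h1]
      simp only at h2 ⊢
      rw [← h2]; simp
    · rintro ⟨h1, h2⟩
      simp only at h1 h2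
      subst h1
      refine ⟨idx_spec h _, ?_⟩
      simp only
      rw [h2, W]; simp
  constructor
  · intro H p z
    obtain ⟨t, ht, hu⟩ := H (p.1, p.2, z)
    rw [hmem] at ht
    refine ⟨t.1.1, ?_, fun ε hε => ?_⟩
    · show Cond _ _ _ _ _
      rw [← ht.2]; exact t.2
    · have := hu ⟨(ε, idx s μ (p - gsum g ε), z - W s D μ (p - gsum g ε)), hε⟩
        ((hmem p z _).2 ⟨rfl, rfl⟩)
      rw [← this]
  · intro H x
    obtain ⟨ε, hε, hu⟩ := H (x.1, x.2.1) x.2.2
    refine ⟨⟨(ε, idx s μ ((x.1, x.2.1) - gsum g ε), x.2.2 - W s D μ ((x.1, x.2.1) - gsum g ε)), hε⟩,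
      (hmem (x.1, x.2.1) x.2.2 _).2 ⟨rfl, rfl⟩, ?_⟩
    rintro ⟨⟨ε', i, d⟩, hc⟩ ht
    have := (hmem (x.1, x.2.1) x.2.2 _).1 ht
    simp only at this hc
    obtain ⟨e1, e2⟩ := this
    have e0 : ε' = ε := hu ε' (by show Cond _ _ _ _ _; rw [← e2]; exact hc)
    subst e0 e1 e2
    rfl

theorem til_clause [Nonempty L] (h : Sel s μ) (ht : ∀ a b, ∃ n, nxt^[n] a = b)
    (hr : ∀ j j', j ≠ j' → ∀ p, W s D μ (p - g j') (lit j) = W s D μ p (lit j)) :
    TilI (clauseT nxt lit g Γ μ) (Aset q m s D) ↔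
      ∀ p : Pt q, ∃ j, W s D μ (p - g j) (lit j) + Γ (lit j) = W s D μ p (lit j) := by
  classical
  rw [til_clause_aux nxt lit g Γ h]
  have hW : ∀ p ε j, W s D μ (p - gsum g ε) (lit j)
      = W s D μ (p - if ε j then g j else 0) (lit j) := by
    intro p ε j
    rw [gsum, ← Finset.add_sum_erase _ _ (Finset.mem_univ j), ← sub_sub]
    apply inv_sum (fun p => W s D μ p (lit j))
    intro j' hj' p
    split_ifs
    · exact hr j j' (Finset.ne_of_mem_erase hj').symm p
    · simp
  constructor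
  · intro H p
    by_contra hc
    push Not at hc
    have := (H p (W s D μ (p - gsum g fun _ => true) + Γ)).unique (y₁ := fun _ => true)
      (y₂ := fun _ => false) (by intro j; simp) (by
        intro j
        simp only [Pi.sub_apply, Pi.add_apply, hW]
        simpa [sub_eq_zero] using hc j)
    obtain ⟨j⟩ := ‹Nonempty L›
    simpa using congrFun this j
  · intro H p z
    obtain ⟨j0, hj0⟩ := H p
    have := cyc_unique nxt ht (fun j e => decide (z (lit j) - W s D μ (p - if e then g j else 0) (lit j)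
      = if e then Γ (lit j) else 0)) j0 (by
        simp only [if_true, Bool.false_eq_true, if_false, sub_zero, ← hj0]
        congr 1
        apply propext
        constructor <;> intro h <;> linear_combination h)
    refine (existsUnique_congr fun ε => ?_).1 this
    refine forall_congr' fun j => ?_
    simp only [Pi.sub_apply, hW]
    cases ε (nxt j) <;> simp

end Clause

/-- invariance tile -/
def invT (m : Dat → ℕ) (d : Dat) (g : Pt q) (μ : Mode q) :=
  clauseT (m := m) (L := Unit) id (fun _ => d) (fun _ => g) 0 μ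

theorem til_inv (h : Sel s μ) (d : Dat) (g : Pt q) :
    TilI (invT m d g μ) (Aset q m s D) ↔ ∀ p : Pt q, W s D μ (p - g) d = W s D μ p d := by
  rw [invT, til_clause _ _ _ _ h (fun _ _ => ⟨0, rfl⟩) (fun j j' h => absurd rfl h)]
  simp

end

end Crest.Agent.R46
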