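import Mathlib

set_option autoImplicit false

namespace Crest.Agent.R46

/-- The p-adic Sudoku rule on a line. -/
def Rule (p : ℕ) (g : ℕ → ZMod p) : Prop :=
  ∃ a b : ℤ, ¬ ((p:ℤ) ∣ a ∧ (p:ℤ) ∣ b) ∧
    (∀ n : ℕ, n < p^2 → ¬ (p:ℤ) ∣ a*n+b → g n = ((a*n+b : ℤ) : ZMod p)) ∧
    (∀ n : ℕ, n < p^2 → ∀ t : ℤ, a*n+b = p*t → ¬ (p:ℤ) ∣ t → g n = (t : ZMod p))

theorem Rule.congr {p : ℕ} {g g' : ℕ → ZMod p} (h : Rule p g) (e : ∀ n, n < p^2 → g' n = g n) :
    Rule p g' := by
  obtain ⟨a, b, h0, h1, h2⟩ := h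
  exact ⟨a, b, h0, fun n hn h => (e n hn).trans (h1 n hn h),
    fun n hn t ht h => (e n hn).trans (h2 n hn t ht h)⟩

theorem root_card {K ι : Type*} [Field K] [DecidableEq K] (S : Finset ι) (x : ι → K)
    (hx : Set.InjOn x S) (a b : K) (h : ¬ (a = 0 ∧ b = 0)) :
    (S.filter (fun k => a * x k + b = 0)).card ≤ 1 := by
  rw [Finset.card_le_one]
  intro k hk l hl
  rw [Finset.mem_filter] at hk hl
  have ha : a ≠ 0 := by
    rintro rfl
    exact h ⟨rfl, by simpa using hk.2⟩
  apply hx hk.1 hl.1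
  have : a * (x k - x l) = 0 := by linear_combination hk.2 - hl.2
  rcases mul_eq_zero.1 this with h | h
  · exact absurd h ha
  · exact sub_eq_zero.1 h

theorem aff_unique {K ι : Type*} [Field K] (S : Finset ι) (hS : 4 ≤ S.card) (x v : ι → K)
    (hx : Set.InjOn x S) (a b a' b' : K) (h : ¬ (a = 0 ∧ b = 0)) (h' : ¬ (a' = 0 ∧ b' = 0))
    (h1 : ∀ k ∈ S, a * x k + b ≠ 0 → v k = a * x k + b)
    (h2 : ∀ k ∈ S, a' * x k + b' ≠ 0 → v k = a' * x k + b') : a = a' ∧ b = b' := by
  classical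
  have c1 := root_card S x hx a b h
  have c2 := root_card S x hx a' b' h'
  set R1 := S.filter (fun k => a * x k + b = 0)
  set R2 := S.filter (fun k => a' * x k + b' = 0)
  have c3 : 1 < (S \ (R1 ∪ R2)).card := by
    have := Finset.le_card_sdiff (R1 ∪ R2) S
    have := Finset.card_union_le R1 R2
    omega
  obtain ⟨k, hk, l, hl, hkl⟩ := Finset.one_lt_card.1 c3
  simp only [Finset.mem_sdiff, Finset.mem_union, not_or, R1, R2, Finset.mem_filter, not_and] at hk hl
  have e1 := h1 k hk.1 (hk.2.1 hk.1)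
  have e2 := h2 k hk.1 (hk.2.2 hk.1)
  have e3 := h1 l hl.1 (hl.2.1 hl.1)
  have e4 := h2 l hl.1 (hl.2.2 hl.1)
  have hne : x k - x l ≠ 0 := fun e => hkl (hx hk.1 hl.1 (sub_eq_zero.1 e))
  have : (a - a') * (x k - x l) = 0 := by linear_combination e2 - e1 + e3 - e4
  have ha : a = a' := by
    rcases mul_eq_zero.1 this with h | h
    · exact sub_eq_zero.1 h
    · exact absurd h hne
  refine ⟨ha, ?_⟩
  subst ha
  linear_combination e2 - e1

section
variable {p : ℕ} [Fact p.Prime]

theorem cast_inj_small {s t : ℤ} (h : |s - t| < p) (e : (s : ZMod p) = t) : s = t := by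
  have := (ZMod.intCast_eq_intCast_iff_dvd_sub s t p).1 e
  have h2 : t - s = 0 := Int.eq_zero_of_abs_lt_dvd this (by rwa [abs_sub_comm])
  omega

/-- first level of the rule -/
def Aff (g : ℕ → ZMod p) (a b : ZMod p) : Prop :=
  ¬ (a = 0 ∧ b = 0) ∧ ∀ n : ℕ, n < p^2 → a * n + b ≠ 0 → g n = a * n + b

theorem Rule.aff' {g : ℕ → ZMod p} {a b : ℤ} (h0 : ¬ ((p:ℤ) ∣ a ∧ (p:ℤ) ∣ b))
    (h1 : ∀ n : ℕ, n < p^2 → ¬ (p:ℤ) ∣ a*n+b → g n = ((a*n+b : ℤ) : ZMod p)) :
    Aff g (a : ZMod p) (b : ZMod p) := by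
  refine ⟨?_, fun n hn h => ?_⟩
  · rw [ZMod.intCast_zmod_eq_zero_iff_dvd, ZMod.intCast_zmod_eq_zero_iff_dvd]; exact h0
  · rw [h1 n hn]
    · push_cast; ring
    · rw [← ZMod.intCast_zmod_eq_zero_iff_dvd]; push_cast; exact h

theorem Rule.aff {g : ℕ → ZMod p} (h : Rule p g) : ∃ a b, Aff g a b := by
  obtain ⟨a, b, h0, h1, _⟩ := h
  exact ⟨a, b, Rule.aff' h0 h1⟩

/-- row `m` agrees with the affine function off its zeros -/
def Good (F : ℕ → ℤ → ZMod p) (A B C : ZMod p) (m : ℤ) : Prop :=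
  ∀ n : ℕ, n < p^2 → A * n + B * m + C ≠ 0 → F n m = A * n + B * m + C

theorem good_ext (hp : 12 < p) (F : ℕ → ℤ → ZMod p)
    (hF : ∀ i j : ℤ, Rule p (fun n => F n (j * n + i))) (A B C : ZMod p) (m : ℤ)
    (T : Finset ℤ) (hT : 4 ≤ T.card) (hg : ∀ t ∈ T, Good F A B C t)
    (hd : ∀ t ∈ T, |t - m| ≤ 5) : Good F A B C m := by
  have hp2 : 12 * 12 < p ^ 2 := by nlinarith
  have stepa : ∀ n : ℕ, 5 ≤ n → n ≤ 8 → A * n + B * m + C ≠ 0 → F n m = A * n + B * m + C := by
    intro n h5 h8 hne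
    obtain ⟨a, b, h0, h1⟩ := (hF (m - n) 1).aff
    have hz : ¬ (A + B = 0 ∧ B * ((m : ZMod p) - n) + C = 0) := by
      rintro ⟨e1, e2⟩
      exact hne (by linear_combination (n : ZMod p) * e1 + e2)
    have key := aff_unique T hT (fun t => ((n + t - m : ℤ) : ZMod p))
      (fun t => F (n + t - m).toNat t) ?_ a b (A + B) (B * ((m : ZMod p) - n) + C) h0 hz ?_ ?_
    · have := h1 n (by omega)
      simp only [one_mul, add_sub_cancel] at this
      rw [key.1, key.2] at this
      rw [this]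
      · ring
      · intro e; exact hne (by linear_combination e)
    · intro s hs t ht e
      have h1 := abs_le.1 (hd s hs)
      have h2 := abs_le.1 (hd t ht)
      have := cast_inj_small (p := p) (by rw [abs_lt]; constructor <;> omega) e
      omega
    · intro t ht hne
      have h2 := abs_le.1 (hd t ht)
      have e1 : (((n + t - m).toNat : ℕ) : ℤ) = n + t - m := by omega
      have e2 : (((n + t - m).toNat : ℕ) : ZMod p) = ((n + t - m : ℤ) : ZMod p) := by
        rw [← e1]; simp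
      have := h1 (n + t - m).toNat (by omega) (by rw [e2]; exact hne)
      simp only [e1, e2] at this
      rw [show 1 * ((n:ℤ) + t - m) + (m - n) = t by ring] at this
      exact this
    · intro t ht hne
      have h2 := abs_le.1 (hd t ht)
      have e1 : (((n + t - m).toNat : ℕ) : ℤ) = n + t - m := by omega
      have e2 : (((n + t - m).toNat : ℕ) : ZMod p) = ((n + t - m : ℤ) : ZMod p) := by
        rw [← e1]; simp
      have := hg t ht (n + t - m).toNat (by omega) (by
        rw [e2]; intro e; apply hne; push_cast at e ⊢; linear_combination e)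
      rw [e2] at this
      show F (n + t - m).toNat t = _
      rw [this]; push_cast; ring
  intro n hn hne
  obtain ⟨a, b, h0, h1⟩ := (hF m 0).aff
  simp only [zero_mul, zero_add] at h1
  have hz : ¬ (A = 0 ∧ B * m + C = 0) := by
    rintro ⟨e1, e2⟩
    exact hne (by linear_combination (n : ZMod p) * e1 + e2)
  have key := aff_unique (Finset.Icc 5 8 : Finset ℕ) (by simp) (fun k => (k : ZMod p))
    (fun k => F k m) ?_ a b A (B * m + C) h0 hz ?_ ?_
  · rw [h1 n hn] <;> rw [key.1, key.2]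
    · ring
    · intro e; exact hne (by linear_combination e)
  · intro s hs t ht e
    simp only [Finset.coe_Icc, Set.mem_Icc] at hs ht
    have := cast_inj_small (p := p) (s := s) (t := t) (by rw [abs_lt]; constructor <;> omega)
      (by simpa using e)
    omega
  · intro k hk hne
    rw [Finset.mem_Icc] at hk
    exact h1 k (by omega) hne
  · intro k hk hne
    rw [Finset.mem_Icc] at hk
    show F k m = _
    rw [stepa k hk.1 hk.2]
    · ring
    · intro e; exact hne (by linear_combination e)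

theorem diag_rows (hp : 12 < p) (F : ℕ → ℤ → ZMod p)
    (hF : ∀ i j : ℤ, Rule p (fun n => F n (j * n + i))) (a b : ℤ → ZMod p)
    (hab : ∀ t, Aff (fun n => F n t) (a t) (b t)) (s : ℤ) (hs : s = 1 ∨ s = -1) :
    ∃ e : ℤ, ∃ α0 α1 β0 β1 : ZMod p, ∀ t ∈ Finset.Icc (0:ℤ) 5, t ≠ e →
      a t = α0 + α1 * t ∧ b t + s * a t * t = β0 + β1 * t := by
  classical
  have hp2 : 12 * p < p ^ 2 := by nlinarith
  have hss : s * s = 1 := by rcases hs with rfl | rfl <;> norm_num
  set R : Finset ℕ := Finset.Ico 5 (5 + p)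
  have hinj : Set.InjOn (fun n : ℕ => (n : ZMod p)) R := by
    intro s hs t ht e
    simp only [R, Finset.coe_Ico, Set.mem_Ico] at hs ht
    have := cast_inj_small (p := p) (s := s) (t := t) (by rw [abs_lt]; constructor <;> omega)
      (by simpa using e)
    omega
  set bad : Finset ℕ := (Finset.Icc (0:ℤ) 5).biUnion
    (fun t => R.filter (fun n => a t * n + (a t * s * t + b t) = 0))
  have hbad : bad.card ≤ 6 := by
    refine le_trans Finset.card_biUnion_le ?_
    refine le_trans (Finset.sum_le_card_nsmul _ _ 1 ?_) (by simp)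
    intro t _
    apply root_card R _ hinj
    rintro ⟨e1, e2⟩
    apply (hab t).1
    refine ⟨e1, ?_⟩
    rw [e1] at e2; simpa using e2
  have hcard : (Finset.Icc (0:ℤ) 5).card < (R \ bad).card := by
    have := Finset.le_card_sdiff bad R
    have h2 : R.card = p := by simp [R]
    have h3 : (Finset.Icc (0:ℤ) 5).card = 6 := by simp
    omega
  have hex : ∀ n ∈ R \ bad, ∃ e ∈ Finset.Icc (0:ℤ) 5, ∃ c d : ZMod p,
      ∀ t ∈ Finset.Icc (0:ℤ) 5, t ≠ e → a t * n + (a t * s * t + b t) = c * t + d := by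
    intro n hn
    rw [Finset.mem_sdiff] at hn
    have hn1 := Finset.mem_Ico.1 hn.1
    obtain ⟨u, v, h0, h1⟩ := (hF (-s * n) s).aff
    have hz : ¬ (u * s = 0 ∧ u * n + v = 0) := by
      rintro ⟨e1, e2⟩
      have hu : u = 0 := by
        have : u * ((s * s : ℤ) : ZMod p) = 0 := by push_cast; linear_combination (s : ZMod p) * e1
        rw [hss] at this; simpa using this
      exact h0 ⟨hu, by rw [hu] at e2; simpa using e2⟩
    have hc := root_card (Finset.Icc (0:ℤ) 5) (fun t : ℤ => (t : ZMod p)) (by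
      intro s hs t ht e
      simp only [Finset.coe_Icc, Set.mem_Icc] at hs ht
      exact cast_inj_small (p := p) (by rw [abs_lt]; constructor <;> omega) e) _ _ hz
    obtain ⟨e, he⟩ : ∃ e ∈ Finset.Icc (0:ℤ) 5, ∀ t ∈ Finset.Icc (0:ℤ) 5, t ≠ e →
        u * s * t + (u * n + v) ≠ 0 := by
      by_cases h : ∃ e ∈ Finset.Icc (0:ℤ) 5, u * s * e + (u * n + v) = 0
      · obtain ⟨e, he1, he2⟩ := h
        refine ⟨e, he1, fun t ht hte h => hte ?_⟩
        exact Finset.card_le_one.1 hc t (Finset.mem_filter.2 ⟨ht, h⟩) e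
          (Finset.mem_filter.2 ⟨he1, he2⟩)
      · push Not at h
        exact ⟨0, by simp, fun t ht _ => h t ht⟩
    refine ⟨e, he.1, u * s, u * n + v, fun t ht hte => ?_⟩
    have ht1 := Finset.mem_Icc.1 ht
    have hst : -5 ≤ s * t ∧ s * t ≤ 5 := by rcases hs with rfl | rfl <;> omega
    have e1 : (((n + s * t).toNat : ℕ) : ℤ) = n + s * t := by omega
    have e2 : (((n + s * t).toNat : ℕ) : ZMod p) = ((n + s * t : ℤ) : ZMod p) := by
      rw [← e1]; simp
    have hlt : (n + s * t).toNat < p ^ 2 := by omega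
    have k1 := h1 _ hlt (by
      rw [e2]; intro h; apply he.2 t ht hte; push_cast at h; linear_combination h)
    have k2 := (hab t).2 _ hlt (by
      rw [e2]; intro h; apply hn.2
      refine Finset.mem_biUnion.2 ⟨t, ht, Finset.mem_filter.2 ⟨hn.1, ?_⟩⟩
      push_cast at h; linear_combination h)
    simp only [e1, e2] at k1 k2
    rw [show s * ((n:ℤ) + s * t) + -s * n = (s * s) * t by ring, hss, one_mul] at k1
    rw [k1] at k2
    push_cast at k2
    linear_combination -k2
  choose! e he c d hcd using hex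
  obtain ⟨n, hn, n', hn', hne, hee⟩ := Finset.exists_ne_map_eq_of_card_lt_of_maps_to hcard he
  have hnn : (n : ZMod p) - n' ≠ 0 := fun h =>
    hne (hinj (Finset.mem_sdiff.1 hn).1 (Finset.mem_sdiff.1 hn').1 (sub_eq_zero.1 h))
  refine ⟨e n, (d n - d n') / (n - n'), (c n - c n') / (n - n'),
    d n - (d n - d n') / (n - n') * n, c n - (c n - c n') / (n - n') * n, fun t ht hte => ?_⟩
  have k1 := hcd n hn t ht hte
  have k2 := hcd n' hn' t ht (hee ▸ hte)
  have ha : a t = (d n - d n') / (n - n') + (c n - c n') / (n - n') * t := by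
    field_simp
    linear_combination k1 - k2
  refine ⟨ha, ?_⟩
  have : b t + s * a t * t = c n * t + d n - a t * n := by linear_combination k1
  rw [this, ha]; ring

theorem global_aff (hp : 12 < p) (F : ℕ → ℤ → ZMod p)
    (hF : ∀ i j : ℤ, Rule p (fun n => F n (j * n + i))) :
    ∃ A B C : ZMod p, ¬ (A = 0 ∧ B = 0 ∧ C = 0) ∧ ∀ m, Good F A B C m := by
  classical
  have hrow : ∀ t : ℤ, ∃ a b, Aff (fun n => F n t) a b := fun t => by
    simpa using (hF t 0).aff
  choose a b hab using hrow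
  obtain ⟨e, α0, α1, β0, β1, h1⟩ := diag_rows hp F hF a b hab 1 (Or.inl rfl)
  obtain ⟨e', α0', α1', β0', β1', h2⟩ := diag_rows hp F hF a b hab (-1) (Or.inr rfl)
  set T : Finset ℤ := Finset.Icc (0:ℤ) 5 \ {e, e'}
  have hT : 4 ≤ T.card := by
    have : (Finset.Icc (0:ℤ) 5).card - ({e, e'} : Finset ℤ).card ≤ T.card :=
      Finset.le_card_sdiff ({e, e'} : Finset ℤ) (Finset.Icc (0:ℤ) 5)
    have h2 : ({e, e'} : Finset ℤ).card ≤ 2 := Finset.card_le_two
    have h3 : (Finset.Icc (0:ℤ) 5).card = 6 := by simp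
    omega
  have hT1 : ∀ t ∈ T, t ∈ Finset.Icc (0:ℤ) 5 ∧ t ≠ e ∧ t ≠ e' := by
    intro t ht
    simpa only [T, Finset.mem_sdiff, Finset.mem_insert, Finset.mem_singleton, not_or] using ht
  have hq : ∀ t ∈ T, 2 * α1 * (t : ZMod p) ^ 2 + (2 * α0 - β1 + β1') * t - (β0 - β0') = 0 := by
    intro t ht
    obtain ⟨k0, k1, k2⟩ := hT1 t ht
    have e1 := h1 t k0 k1
    have e2 := h2 t k0 k2
    push_cast at e1 e2
    linear_combination e1.2 - e2.2 - 2 * (t : ZMod p) * e1.1
  have hα : α1 = 0 := by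
    obtain ⟨t1, t2, t3, m1, m2, m3, n12, n13, n23⟩ := Finset.two_lt_card_iff.1 (show 2 < T.card by omega)
    have hd : ∀ s ∈ T, ∀ t ∈ T, s ≠ t → (s : ZMod p) - t ≠ 0 := by
      intro s hs t ht hst h
      have := Finset.mem_Icc.1 (hT1 s hs).1
      have := Finset.mem_Icc.1 (hT1 t ht).1
      exact hst (cast_inj_small (p := p) (by rw [abs_lt]; constructor <;> omega) (sub_eq_zero.1 h))
    have q1 := hq t1 m1
    have q2 := hq t2 m2
    have q3 := hq t3 m3
    have h2 : (2 : ZMod p) ≠ 0 := by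
      intro h
      have := cast_inj_small (p := p) (s := 2) (t := 0) (by norm_num; omega) (by simpa using h)
      omega
    have : 2 * α1 * ((t1 : ZMod p) - t2) * ((t1 : ZMod p) - t3) * ((t2 : ZMod p) - t3) = 0 := by
      linear_combination ((t2 : ZMod p) - t3) * q1 - ((t1 : ZMod p) - t3) * q2
        + ((t1 : ZMod p) - t2) * q3
    simpa [h2, hd t1 m1 t2 m2 n12, hd t1 m1 t3 m3 n13, hd t2 m2 t3 m3 n23] using this
  have hrowT : ∀ t ∈ T, a t = α0 ∧ b t = (β1 - α0) * t + β0 := by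
    intro t ht
    obtain ⟨k0, k1, k2⟩ := hT1 t ht
    have e1 := h1 t k0 k1
    rw [hα] at e1
    push_cast at e1
    exact ⟨by linear_combination e1.1, by linear_combination e1.2 - (t : ZMod p) * e1.1⟩
  have hgT : ∀ t ∈ T, Good F α0 (β1 - α0) β0 t := by
    intro t ht n hn hne
    have := (hab t).2 n hn
    rw [(hrowT t ht).1, (hrowT t ht).2] at this
    rw [add_assoc] at hne ⊢
    exact this hne
  refine ⟨α0, β1 - α0, β0, ?_, ?_⟩
  · rintro ⟨e1, e2, e3⟩
    obtain ⟨t, ht⟩ : T.Nonempty := Finset.card_pos.1 (by omega)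
    apply (hab t).1
    rw [(hrowT t ht).1, (hrowT t ht).2, e2, e3, e1]; simp
  · have : ∀ k : ℕ, ∀ m : ℤ, -k ≤ m → m ≤ 5 + k → Good F α0 (β1 - α0) β0 m := by
      intro k
      induction k with
      | zero =>
        intro m h1 h2
        refine good_ext hp F hF _ _ _ m T hT hgT fun t ht => ?_
        have := Finset.mem_Icc.1 (hT1 t ht).1
        rw [abs_le]; constructor <;> omega
      | succ k ih =>
        intro m h1 h2
        by_cases c1 : m < -k
        · refine good_ext hp F hF _ _ _ m (Finset.Icc (m+1) (m+4)) (by simp) ?_ ?_ <;>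
            intro t ht <;> have := Finset.mem_Icc.1 ht
          · exact ih t (by omega) (by omega)
          · rw [abs_le]; constructor <;> omega
        by_cases c2 : 5 + k < m
        · refine good_ext hp F hF _ _ _ m (Finset.Icc (m-4) (m-1)) (by simp) ?_ ?_ <;>
            intro t ht <;> have := Finset.mem_Icc.1 ht
          · exact ih t (by omega) (by omega)
          · rw [abs_le]; constructor <;> omega
        exact ih m (by omega) (by omega)
    intro m
    exact this m.natAbs m (by omega) (by omega)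

theorem three_avoid (hp : 12 < p) (a c d : ZMod p) (ha : a ≠ 0) :
    ∃ k : ℕ, k ≤ 2 ∧ a * k + c ≠ 0 ∧ a * k + d ≠ 0 := by
  classical
  have hinj : Set.InjOn (fun n : ℕ => (n : ZMod p)) (Finset.Icc 0 2 : Finset ℕ) := by
    intro s hs t ht e
    simp only [Finset.coe_Icc, Set.mem_Icc] at hs ht
    have := cast_inj_small (p := p) (s := s) (t := t) (by rw [abs_lt]; constructor <;> omega)
      (by simpa using e)
    omega
  have c1 := root_card _ _ hinj a c (fun h => ha h.1)
  have c2 := root_card _ _ hinj a d (fun h => ha h.1)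
  set R1 := (Finset.Icc 0 2 : Finset ℕ).filter (fun k : ℕ => a * k + c = 0)
  set R2 := (Finset.Icc 0 2 : Finset ℕ).filter (fun k : ℕ => a * k + d = 0)
  have c3 : 0 < ((Finset.Icc 0 2 : Finset ℕ) \ (R1 ∪ R2)).card := by
    have := Finset.le_card_sdiff (R1 ∪ R2) (Finset.Icc 0 2 : Finset ℕ)
    have := Finset.card_union_le R1 R2
    have : (Finset.Icc 0 2 : Finset ℕ).card = 3 := by simp
    omega
  obtain ⟨k, hk⟩ := Finset.card_pos.1 c3
  simp only [Finset.mem_sdiff, Finset.mem_union, not_or, R1, R2, Finset.mem_filter, not_and] at hk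
  exact ⟨k, (Finset.mem_Icc.1 hk.1).2, hk.2.1 hk.1, hk.2.2 hk.1⟩

theorem descent (hp : 12 < p) (K : ℕ) : ∀ (_ : 0 < K) (F : ℕ → ℤ → ZMod p)
    (_ : ∀ i j : ℤ, Rule p (fun n => F n (j * n + i))) (A B C : ZMod p) (_ : B ≠ 0)
    (_ : ∀ m, Good F A B C m) (_ : ∀ n, n < p ^ 2 → ∀ m, F n (m + K) = F n m), False := by
  induction K using Nat.strong_induction_on with
  | _ K ih =>
  intro hK F hF A B C hB hG hper
  have hp2 : 12 * p < p ^ 2 := by nlinarith
  have hdvd : p ∣ K := by
    obtain ⟨k, _, k1, k2⟩ := three_avoid hp B C (B * K + C) hB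
    have e1 := hG k 0 (by omega) (by simpa using k1)
    have e2 := hG (k + K) 0 (by omega) (by
      intro h; apply k2; push_cast at h; linear_combination h)
    rw [hper 0 (by omega), e1] at e2
    push_cast at e2
    have : B * K = 0 := by linear_combination -e2
    rcases mul_eq_zero.1 this with h | h
    · exact absurd h hB
    · exact (ZMod.natCast_eq_zero_iff K p).1 h
  obtain ⟨K', rfl⟩ := hdvd
  obtain ⟨μ, hμ⟩ := ZMod.intCast_surjective (-A / B)
  obtain ⟨γ, hγ⟩ := ZMod.intCast_surjective (-C / B)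
  have hμ' : B * μ + A = 0 := by rw [hμ]; field_simp; ring
  have hγ' : B * γ + C = 0 := by rw [hγ]; field_simp; ring
  set G : ℕ → ℤ → ZMod p := fun n m => F n (p * m + μ * n + γ)
  have hG' : ∀ i j : ℤ, Rule p (fun n => G n (j * n + i)) := by
    intro i j
    refine (hF (p * i + γ) (p * j + μ)).congr fun n _ => ?_
    simp only [G]; congr 1; ring
  obtain ⟨A', B', C', h0, hg⟩ := global_aff hp G hG'
  have hK' : 0 < K' := Nat.pos_of_mul_pos_left hK
  refine ih K' (by nlinarith) hK' G hG' A' B' C' ?_ hg ?_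
  · rintro rfl
    obtain ⟨n0, hn0, hne⟩ : ∃ n0 : ℕ, n0 ≤ 1 ∧ A' * n0 + C' ≠ 0 := by
      by_cases hc : C' = 0
      · exact ⟨1, le_rfl, fun h => h0 ⟨by rw [hc] at h; simpa using h, rfl, hc⟩⟩
      · exact ⟨0, by omega, by simpa using hc⟩
    obtain ⟨a, b, r0, r1, r2⟩ := hF (γ - n0) (μ + 1)
    have ra := Rule.aff' r0 r1
    have key := aff_unique (Finset.Icc 0 3 : Finset ℕ) (by simp) (fun k => (k : ZMod p))
      (fun k => F k ((μ + 1) * k + (γ - n0))) ?_ a b B (-B * n0) ra.1 (fun h => hB h.1) ?_ ?_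
    · have hd : (p : ℤ) ∣ a * n0 + b := by
        rw [← ZMod.intCast_zmod_eq_zero_iff_dvd]; push_cast; rw [key.1, key.2]; ring
      obtain ⟨t0, ht0⟩ := hd
      have hval : ∀ k : ℕ, k ≤ 3 → B * k + t0 ≠ 0 → B * k + t0 = A' * n0 + C' := by
        intro k hk hne'
        have hlt : n0 + p * k < p ^ 2 := by nlinarith
        have e1 := r2 (n0 + p * k) hlt (a * k + t0) (by push_cast; linear_combination ht0) (by
          rw [← ZMod.intCast_zmod_eq_zero_iff_dvd]; push_cast; rw [key.1]; exact hne')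
        have e2 := hg k (n0 + p * k) hlt (by simpa using hne)
        simp only [G] at e2
        rw [show (p:ℤ) * k + μ * ((n0 + p * k : ℕ) : ℤ) + γ
          = (μ + 1) * ((n0 + p * k : ℕ) : ℤ) + (γ - n0) by push_cast; ring] at e2
        simp only at e1
        rw [e1] at e2
        push_cast at e2
        rw [key.1] at e2
        simpa using e2
      obtain ⟨k, hk, k1, k2⟩ := three_avoid hp B t0 (B + t0) hB
      have v1 := hval k (by omega) k1
      have v2 := hval (k + 1) (by omega) (by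
        intro h; apply k2; push_cast at h; linear_combination h)
      push_cast at v2
      exact hB (by linear_combination v2 - v1)
    · intro s hs t ht e
      simp only [Finset.coe_Icc, Set.mem_Icc] at hs ht
      have := cast_inj_small (p := p) (s := s) (t := t) (by rw [abs_lt]; constructor <;> omega)
        (by simpa using e)
      omega
    · intro k hk hne
      exact ra.2 k (by have := Finset.mem_Icc.1 hk; omega) hne
    · intro k hk hne
      have e : A * k + B * (((μ + 1) * k + (γ - n0) : ℤ) : ZMod p) + C = B * k + -B * n0 := by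
        push_cast; linear_combination (k : ZMod p) * hμ' + hγ'
      have := hG ((μ + 1) * k + (γ - n0)) k (by have := Finset.mem_Icc.1 hk; omega)
        (by rw [e]; exact hne)
      rw [e] at this
      exact this
  · intro n hn m
    simp only [G]
    rw [← hper n hn (p * m + μ * n + γ)]
    congr 1; push_cast; ring

theorem sudoku_aperiodic (hp : 12 < p) (F : ℕ → ℤ → ZMod p)
    (hF : ∀ i j : ℤ, Rule p (fun n => F n (j * n + i)))
    (h0 : ∀ n ≤ 1, ∃ m m', F n m ≠ F n m') (K : ℕ) (hK : 0 < K)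
    (hper : ∀ n, n < p ^ 2 → ∀ m, F n (m + K) = F n m) : False := by
  obtain ⟨A, B, C, hz, hg⟩ := global_aff hp F hF
  refine descent hp K hK F hF A B C ?_ hg hper
  rintro rfl
  have hp2 : 12 * p < p ^ 2 := by nlinarith
  obtain ⟨n0, hn0, hne⟩ : ∃ n0 : ℕ, n0 ≤ 1 ∧ A * n0 + C ≠ 0 := by
    by_cases hc : C = 0
    · exact ⟨1, le_rfl, fun h => hz ⟨by rw [hc] at h; simpa using h, rfl, hc⟩⟩
    · exact ⟨0, by omega, by simpa using hc⟩
  obtain ⟨m, m', h⟩ := h0 n0 hn0
  apply h
  rw [hg m n0 (by omega) (by simpa using hne), hg m' n0 (by omega) (by simpa using hne)]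
  simp

theorem sudoku_exists : ∃ f : ℤ → ZMod p, (∀ i j : ℤ, Rule p (fun n => f (j * n + i))) ∧
    ∀ m : ℤ, ¬ (p:ℤ) ∣ m → f m = m := by
  have hp : p.Prime := Fact.out
  set f : ℤ → ZMod p := fun m => if m = 0 then 1 else ((m / (p:ℤ) ^ (padicValInt p m) : ℤ) : ZMod p)
  have hf : ∀ (k : ℕ) (u : ℤ), ¬ (p:ℤ) ∣ u → f ((p:ℤ) ^ k * u) = u := by
    intro k u hu
    have hu0 : u ≠ 0 := by rintro rfl; exact hu (dvd_zero _)
    have hpk : (p:ℤ) ^ k ≠ 0 := pow_ne_zero _ (by exact_mod_cast hp.ne_zero)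
    have hv : padicValInt p ((p:ℤ) ^ k * u) = k := by
      rw [padicValInt.mul hpk hu0, padicValInt.eq_zero_of_not_dvd hu]
      simp [padicValInt, Int.natAbs_pow]
    simp only [f, if_neg (mul_ne_zero hpk hu0), hv]
    rw [Int.mul_ediv_cancel_left _ hpk]
  refine ⟨f, fun i j => ?_, fun m hm => by simpa using hf 0 m hm⟩
  by_cases h0 : i = 0 ∧ j = 0
  · obtain ⟨rfl, rfl⟩ := h0
    have h1 : ¬ (p:ℤ) ∣ 1 := by
      intro h; have := Int.eq_one_of_dvd_one (by positivity) h
      exact hp.one_lt.ne' (by exact_mod_cast this)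
    refine ⟨0, 1, fun h => h1 h.2, fun n _ _ => by simp [f], fun n _ t ht _ => ?_⟩
    exact absurd ⟨t, by simpa using ht⟩ h1
  · have hg : Int.gcd i j ≠ 0 := fun h => h0 (Int.gcd_eq_zero_iff.1 h)
    obtain ⟨k, u, hu, hku⟩ := Nat.exists_eq_pow_mul_and_not_dvd hg p hp.ne_one
    have d1 : (p:ℤ) ^ k ∣ Int.gcd i j := by rw [hku]; push_cast; exact dvd_mul_right _ _
    obtain ⟨b, hb⟩ := d1.trans (Int.gcd_dvd_left i j)
    obtain ⟨a, ha⟩ := d1.trans (Int.gcd_dvd_right i j)
    refine ⟨a, b, ?_, fun n _ h => ?_, fun n _ t ht h => ?_⟩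
    · rintro ⟨⟨a', rfl⟩, ⟨b', rfl⟩⟩
      apply hu
      have : ((p ^ k * p : ℕ) : ℤ) ∣ Int.gcd i j := by
        apply Int.dvd_coe_gcd
        · rw [hb]; push_cast; exact ⟨b', by ring⟩
        · rw [ha]; push_cast; exact ⟨a', by ring⟩
      rw [hku] at this
      exact Nat.dvd_of_mul_dvd_mul_left (pow_pos hp.pos k) (by exact_mod_cast this)
    · show f _ = _
      rw [show j * n + i = (p:ℤ) ^ k * (a * n + b) by rw [ha, hb]; ring]
      exact hf k _ h
    · show f _ = _
      rw [show j * n + i = (p:ℤ) ^ (k + 1) * t by rw [ha, hb, pow_succ, mul_assoc _ (p:ℤ), ← ht]; ring]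
      exact hf _ _ h

end

end Crest.Agent.R46
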