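import Crest.Agent.R46.Force
import Crest.Agent.R46.Sudoku

set_option autoImplicit false
set_option linter.unusedSectionVars false

namespace Crest.Agent.R46

theorem exists_cyc (L : Type) [Fintype L] [Nonempty L] :
    ∃ nxt : L → L, ∀ a b, ∃ n, nxt^[n] a = b := by
  have : NeZero (Fintype.card L) := ⟨Fintype.card_ne_zero⟩
  let e : L ≃ ZMod (Fintype.card L) := Fintype.equivOfCardEq (by simp [ZMod.card])
  refine ⟨fun a => e.symm (e a + 1), fun a b => ⟨(e b - e a).val, ?_⟩⟩
  have : ∀ n : ℕ, (fun a => e.symm (e a + 1))^[n] a = e.symm (e a + n) := by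
    intro n
    induction n with
    | zero => simp
    | succ n ih => rw [Function.iterate_succ_apply', ih]; simp [add_assoc]
  rw [this]; simp

noncomputable def cycN (L : Type) [Fintype L] [Nonempty L] : L → L := (exists_cyc L).choose

theorem cycN_spec (L : Type) [Fintype L] [Nonempty L] : ∀ a b, ∃ n, (cycN L)^[n] a = b :=
  (exists_cyc L).choose_spec

abbrev VG (p : ℕ) := Fin (p ^ 2) × Bool
abbrev CG := Bool × Bool
abbrev Gad (p : ℕ) := VG p ⊕ CG
abbrev Dat (p : ℕ) := Gad p × Bool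
abbrev Lab (p : ℕ) := (VG p × ZMod p) ⊕ (Gad p ⊕ Unit)
abbrev Cmp (p : ℕ) := Lab p ⊕ Dat p

variable {p : ℕ}

def dig (g : VG p) (d : ZMod p) : Lab p := .inl (g, d)
def star (g : Gad p) : Lab p := .inr (.inl g)
def kap : Lab p := .inr (.inr ())

def own : Lab p → Option (Gad p)
  | .inl (g, _) => some (.inl g)
  | .inr (.inl g) => some g
  | .inr (.inr _) => none

@[simp] theorem own_dig (g : VG p) (d : ZMod p) : own (dig g d) = some (.inl g) := rfl
@[simp] theorem own_star (g : Gad p) : own (star g) = some g := rfl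
@[simp] theorem own_kap : own (kap : Lab p) = none := rfl

def dir : Gad p → X
  | .inl g => ((g.1 : ℕ), -1)
  | .inr _ => (1, 0)

structure Par (p : ℕ) where
  q : Lab p → ℕ
  m : Dat p → ℕ
  L : ℕ
  hq : ∀ c, 0 < q c
  hm : ∀ d, 1 < m d
  qk : q kap = p
  crt : ∀ r : Cmp p → ℤ, ∃ n : ℤ, (∀ c, ((q c ^ 2 : ℕ) : ℤ) ∣ n - r (.inl c)) ∧
    ∀ d, (m d : ℤ) ∣ n - r (.inr d)
  hqd : ∀ g d, 2 * m (.inl g, false) ≤ q (dig g d)
  hqs : ∀ g, 2 * m (g, true) ≤ q (star g)
  hL : ∀ k, m (.inr k, false) + ∑ k', m (.inr k', false) ≤ L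
  hp : 2 * L < p

instance (P : Par p) (c : Lab p) : NeZero (P.q c) := ⟨(P.hq c).ne'⟩
instance (P : Par p) (d : Dat p) : NeZero (P.m d) := ⟨by have := P.hm d; omega⟩

namespace Par
variable (P : Par p)

def bm : Cmp p → ℕ := Sum.elim P.q P.m

theorem crt' (r : Cmp p → ℤ) : ∃ n : ℤ, ∀ c, (P.bm c : ℤ) ∣ n - r c := by
  obtain ⟨n, h1, h2⟩ := P.crt r
  refine ⟨n, ?_⟩
  rintro (c | d)
  · exact Dvd.dvd.trans (by simp [bm, sq]) (h1 c)
  · exact h2 d

theorem ex_e (c : Cmp p) : ∃ n : ℤ, (P.bm c : ℤ) ∣ n - 1 ∧ ∀ c', c' ≠ c → (P.bm c' : ℤ) ∣ n := by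
  classical
  obtain ⟨n, hn⟩ := P.crt' (fun c' => if c' = c then 1 else 0)
  exact ⟨n, by simpa using hn c, fun c' h => by simpa [h] using hn c'⟩

noncomputable def e (c : Cmp p) : ℤ := (P.ex_e c).choose

theorem e1 (c : Cmp p) : (P.bm c : ℤ) ∣ P.e c - 1 := (P.ex_e c).choose_spec.1

theorem e0 {c c' : Cmp p} (h : c' ≠ c) : (P.bm c' : ℤ) ∣ P.e c := (P.ex_e c).choose_spec.2 c' h

def rE : Cmp p → ℤ
  | .inl (.inl ((_, false), _)) => 1
  | .inl (.inr (.inl (.inl (_, false)))) => 1
  | .inr (.inl (_, false), _) => 1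
  | _ => 0

noncomputable def EE : ℤ := (P.crt' rE).choose

noncomputable def Nn (g : VG p) : ℤ := if g.2 then P.EE else P.EE - 1

theorem Nn_lab (g : VG p) (c : Lab p) (h : own c = some (.inl g)) : (P.q c : ℤ) ∣ P.Nn g := by
  have := (P.crt' rE).choose_spec (.inl c)
  obtain ⟨n, b⟩ := g
  rcases c with ⟨g', d⟩ | g' | u
  · simp only [own, Option.some.injEq, Sum.inl.injEq] at h
    subst h
    cases b <;> simpa [Nn, rE, bm, EE] using this
  · simp only [own, Option.some.injEq] at h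
    subst h
    cases b <;> simpa [Nn, rE, bm, EE] using this
  · simp [own] at h

theorem Nn_dat (g : VG p) (b' : Bool) : (P.m (.inl g, b') : ℤ) ∣ P.Nn g := by
  have := (P.crt' rE).choose_spec (.inr (.inl g, b'))
  obtain ⟨n, b⟩ := g
  cases b <;> simpa [Nn, rE, bm, EE] using this

theorem one_ne (d : Dat p) : (1 : ZMod (P.m d)) ≠ 0 := by
  have : Fact (1 < P.m d) := ⟨P.hm d⟩
  exact one_ne_zero

theorem cop (c : Lab p) (d : Dat p) : (P.q c : ZMod (P.m d)) ≠ 0 := by
  intro h
  obtain ⟨t, ht⟩ := P.e0 (c := .inr d) (c' := .inl c) (by simp)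
  have h0 : ((P.m d : ℕ) : ℤ) ∣ (P.q c : ℤ) * t - 1 := by
    have := P.e1 (.inr d)
    rw [ht] at this
    exact this
  have h1 := (ZMod.intCast_zmod_eq_zero_iff_dvd _ (P.m d)).2 h0
  push_cast at h1
  rw [h] at h1
  exact P.one_ne d (by simpa using h1)

variable [Fact p.Prime]

noncomputable def μ0 (g : Gad p) : Mode P.q :=
  ⟨fun c => if own c = some g then P.e (.inl c) • dir g else 0,
   fun c => if own c = some g then 0 else 1⟩

def isDig (g : VG p) : Lab p → Prop
  | .inl (g', _) => g' = g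
  | _ => False

open Classical in
noncomputable def δV (g : VG p) : Y P.q := fun c => if isDig g c then (P.q c : ZMod (P.q c ^ 2)) else 0

noncomputable def μ1 : Gad p → Mode P.q
  | .inl g => (P.μ0 (.inl g)).shift (P.δV g)
  | .inr k => (P.μ0 (.inr k)).line kap (P.e (.inl kap) • (1, 0))

noncomputable def st (g : Gad p) (b : Bool) : Pt P.q := (P.e (.inr (g, b)) • dir g, 0)

def ext (ω : VG p → ZMod p) (n : ℕ) : ZMod p := if h : n < p ^ 2 then ω (⟨n, h⟩, false) else 0

def Om (ω : VG p → ZMod p) : Prop := (∀ n, ω (n, true) = ω (n, false)) ∧ Rule p (ext ω)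

def PP (k : CG) (ω : VG p → ZMod p) : Prop := P.L < (ext ω k.1.toNat).val ↔ k.2 = true

def gdO (k : CG) : Option (VG p) → Gad p
  | none => .inr k
  | some g => .inl g

def lbO (k : CG) (ω : VG p → ZMod p) : Option (VG p) → Lab p
  | none => star (.inr k)
  | some g => dig g (ω g)

instance : Nonempty (VG p) := ⟨(⟨0, pow_pos (Fact.out : p.Prime).pos 2⟩, false)⟩

def Sys (A : Set (Gp P.q P.m)) : Prop :=
  TilI (baseT P.m (box P.q)) A ∧ (∀ c, TilI (modT P.m c) A) ∧
  (∀ g, TilI (baseT P.m (P.μ0 g)) A) ∧ (∀ g, TilI (baseT P.m (P.μ1 g)) A) ∧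
  (∀ d : Dat p, ∀ c, own c ≠ some d.1 → TilI (invT P.m d (0, sg P.q c) (box P.q)) A) ∧
  (∀ g, TilI (invT P.m (g, false) (P.st g false) (P.μ1 g)) A) ∧
  (∀ g, TilI (invT P.m (g, true) (P.st g true) ((P.μ0 g).shift (sg P.q (star g)))) A) ∧
  (∀ g b, TilI (invT P.m (g, b) (P.st g (!b)) (P.μ0 g)) A) ∧
  (∀ g, TilI (clauseT not (fun b => (g, b)) (P.st g) 1 (P.μ0 g)) A) ∧
  (∀ g : VG p, TilI (invT P.m (.inl g, false) (P.Nn g • dir (.inl g), 0) (box P.q)) A) ∧
  (∀ ω, ¬ Om ω → TilI (clauseT (cycN (VG p)) (fun g => (.inl g, false))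
    (fun g => (0, sg P.q (dig g (ω g)))) 0 (box P.q)) A) ∧
  (∀ k ω, ¬ P.PP k ω → TilI (clauseT (cycN (Option (VG p))) (fun j => (gdO k j, false))
    (fun j => (0, sg P.q (lbO k ω j))) 0 (box P.q)) A)

theorem sys_fd : FD P.Sys := by
  unfold Sys
  refine (FD.til _).and ((FD.all fun _ => FD.til _).and ((FD.all fun _ => FD.til _).and
    ((FD.all fun _ => FD.til _).and ((FD.all fun _ => FD.all fun _ => FD.imp _ (FD.til _)).and
    ((FD.all fun _ => FD.til _).and ((FD.all fun _ => FD.til _).and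
    ((FD.all fun _ => FD.all fun _ => FD.til _).and ((FD.all fun _ => FD.til _).and
    ((FD.all fun _ => FD.til _).and ((FD.all fun _ => FD.imp _ (FD.til _)).and
    (FD.all fun _ => FD.all fun _ => FD.imp _ (FD.til _))))))))))))

structure SysF (s : X → Yb P.q) (D : X → Y P.q → Dt P.m) : Prop where
  sel0 : ∀ g, Sel s (P.μ0 g)
  sel1 : ∀ g, Sel s (P.μ1 g)
  ind : ∀ d : Dat p, ∀ c, own c ≠ some d.1 → ∀ x, ¬ Dep s D x d c
  i1 : ∀ g r, W s D (P.μ1 g) (r - P.st g false) (g, false) = W s D (P.μ1 g) r (g, false)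
  i2 : ∀ g r, W s D ((P.μ0 g).shift (sg P.q (star g))) (r - P.st g true) (g, true)
    = W s D ((P.μ0 g).shift (sg P.q (star g))) r (g, true)
  i3 : ∀ g b r, W s D (P.μ0 g) (r - P.st g (!b)) (g, b) = W s D (P.μ0 g) r (g, b)
  cl : ∀ g r, ∃ b, W s D (P.μ0 g) (r - P.st g b) (g, b) + 1 = W s D (P.μ0 g) r (g, b)
  per : ∀ (g : VG p) r, W s D (box P.q) (r - (P.Nn g • dir (.inl g), 0)) (.inl g, false)
    = W s D (box P.q) r (.inl g, false)
  om : ∀ ω, ¬ Om ω → ∀ x y, ∃ g, W s D (box P.q) (x, y - sg P.q (dig g (ω g))) (.inl g, false)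
    = W s D (box P.q) (x, y) (.inl g, false)
  pk : ∀ k ω, ¬ P.PP k ω → ∀ x y, ∃ j, W s D (box P.q) (x, y - sg P.q (lbO k ω j)) (gdO k j, false)
    = W s D (box P.q) (x, y) (gdO k j, false)

theorem gdO_inj (k : CG) : Function.Injective (gdO (p := p) k) := by
  rintro (_ | a) (_ | b) h <;> simp_all [gdO]

theorem own_lbO (k : CG) (ω : VG p → ZMod p) (j : Option (VG p)) :
    own (lbO k ω j) = some (gdO k j) := by
  cases j <;> rfl

theorem not_cyc (a b : Bool) : ∃ n : ℕ, not^[n] a = b := by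
  by_cases h : a = b
  · exact ⟨0, h⟩
  · exact ⟨1, by cases a <;> cases b <;> simp_all⟩

theorem bool_ne {j j' : Bool} (hj : j ≠ j') : j' = !j := by
  cases j <;> cases j' <;> simp_all

theorem sys_iff (s : X → Yb P.q) (D : X → Y P.q → Dt P.m) :
    P.Sys (Aset P.q P.m s D) ↔ P.SysF s D := by
  have hind : (∀ d : Dat p, ∀ c, own c ≠ some d.1 →
      TilI (invT P.m d (0, sg P.q c) (box P.q)) (Aset P.q P.m s D)) ↔
      (∀ d : Dat p, ∀ c, own c ≠ some d.1 → ∀ x, ¬ Dep s D x d c) := by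
    refine forall_congr' fun d => forall_congr' fun c => forall_congr' fun _ => ?_
    rw [til_inv sel_box]
    simp [Dep]
  have hr1 : (∀ d : Dat p, ∀ c, own c ≠ some d.1 → ∀ x, ¬ Dep s D x d c) → ∀ d : Dat p, ∀ c,
      own c ≠ some d.1 → ∀ r : Pt P.q,
      W s D (box P.q) (r - (0, sg P.q c)) d = W s D (box P.q) r d := by
    intro h d c hc r
    have := not_not.1 (h d c hc r.1) r.2
    convert this using 2
    ext <;> simp
  have hnot := not_cyc
  have hrb : ∀ g, (∀ b r, W s D (P.μ0 g) (r - P.st g (!b)) (g, b) = W s D (P.μ0 g) r (g, b)) →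
      ∀ j j' : Bool, j ≠ j' → ∀ r, W s D (P.μ0 g) (r - P.st g j') (g, j) = W s D (P.μ0 g) r (g, j) := by
    intro g h j j' hj r
    have : j' = !j := bool_ne hj
    rw [this]; exact h j r
  have hs2 : ∀ g, Sel s (P.μ0 g) → Sel s ((P.μ0 g).shift (sg P.q (star g))) :=
    fun g h => sel_shift h (red_sg _)
  constructor
  · rintro ⟨-, -, h3, h4, h5, h6, h7, h8, h9, h10, h11, h12⟩
    simp only [til_base] at h3 h4
    rw [hind] at h5
    have h8' := fun g b => (til_inv (h3 g) _ _).1 (h8 g b)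
    refine ⟨h3, h4, h5, fun g => (til_inv (h4 g) _ _).1 (h6 g),
      fun g => (til_inv (hs2 g (h3 g)) _ _).1 (h7 g), h8',
      fun g => (til_clause _ _ _ _ (h3 g) hnot (hrb g (h8' g))).1 (h9 g),
      fun g => (til_inv sel_box _ _).1 (h10 g), fun ω hω x y => ?_, fun k ω hω x y => ?_⟩
    · simpa using (til_clause _ _ _ _ sel_box (cycN_spec _) (fun j j' hj r =>
        hr1 h5 (.inl j, false) _ (by simpa using hj.symm) r)).1 (h11 ω hω) (x, y)
    · simpa using (til_clause _ _ _ _ sel_box (cycN_spec _) (fun j j' hj r =>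
        hr1 h5 (gdO k j, false) _ (by
          rw [own_lbO]; exact fun h => hj (gdO_inj k (Option.some.inj h)).symm) r)).1
        (h12 k ω hω) (x, y)
  · intro h
    refine ⟨til_base.2 sel_box, fun c => til_mod c, fun g => til_base.2 (h.sel0 g),
      fun g => til_base.2 (h.sel1 g), hind.2 h.ind, fun g => (til_inv (h.sel1 g) _ _).2 (h.i1 g),
      fun g => (til_inv (hs2 g (h.sel0 g)) _ _).2 (h.i2 g),
      fun g b => (til_inv (h.sel0 g) _ _).2 (h.i3 g b),
      fun g => (til_clause _ _ _ _ (h.sel0 g) hnot (hrb g (h.i3 g))).2 (h.cl g),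
      fun g => (til_inv sel_box _ _).2 (h.per g), fun ω hω => ?_, fun k ω hω => ?_⟩
    · refine (til_clause _ _ _ _ sel_box (cycN_spec _) (fun j j' hj r =>
        hr1 h.ind (.inl j, false) _ (by simpa using hj.symm) r)).2 ?_
      rintro ⟨x, y⟩
      simpa using h.om ω hω x y
    · refine (til_clause _ _ _ _ sel_box (cycN_spec _) (fun j j' hj r =>
        hr1 h.ind (gdO k j, false) _ (by
          rw [own_lbO]; exact fun h => hj (gdO_inj k (Option.some.inj h)).symm) r)).2 ?_
      rintro ⟨x, y⟩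
      simpa using h.pk k ω hω x y

theorem red_δV (g : VG p) : red P.q (P.δV g) = 0 := by
  funext c
  simp only [red, δV]
  split_ifs <;> simp

theorem no_periodic (hp : 12 < p) (A : Set (Gp P.q P.m)) (hA : P.Sys A) (K : ℕ) (hK : 0 < K)
    (hper : ∀ a ∈ A, a + (((K : ℤ), 0), 0) ∈ A) : False := by
  classical
  obtain ⟨s, D, rfl⟩ := struct_of_til A hA.1 hA.2.1
  have h := (P.sys_iff s D).1 hA
  have hcl : ∀ g r, W s D (P.μ0 g) (r - P.st g false) (g, false) + 1 = W s D (P.μ0 g) r (g, false) ∨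
      W s D (P.μ0 g) (r - P.st g true) (g, true) + 1 = W s D (P.μ0 g) r (g, true) := by
    intro g r
    obtain ⟨b, hb⟩ := h.cl g r
    cases b
    · exact Or.inl hb
    · exact Or.inr hb
  have hV : ∀ x (g : VG p), ∃ d, Dep s D x (.inl g, false) (dig g d) := by
    intro x g
    obtain ⟨c, hc, hd⟩ := forceV (h.sel0 (.inl g)) (isDig g) (P.δV g) (P.red_δV g)
      (fun c hc => by simp [δV, hc]) (star (.inl g)) (.inl g, false) (.inl g, true) _ _
      (P.cop _ _) (P.one_ne _) (h.i1 (.inl g)) (h.i2 (.inl g)) (hcl (.inl g)) x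
    rcases c with ⟨g', d⟩ | c
    · simp only [isDig] at hc
      subst hc
      exact ⟨d, hd⟩
    · simp [isDig] at hc
  choose δ hδ using hV
  have hOm : ∀ x (ω : VG p → ZMod p), (∀ g, Dep s D x (.inl g, false) (dig g (ω g))) → Om ω := by
    intro x ω hω
    by_contra hc
    obtain ⟨j, hj⟩ := lit_clause (s := s) (D := D) own (fun g : VG p => (.inl g : Gad p))
      Sum.inl_injective (fun g => (.inl g, false)) (fun g => dig g (ω g)) x
      (fun j c hc => h.ind _ c hc x) (h.om ω hc x)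
    exact hj (hω j)
  have hU : ∀ x n b d, Dep s D x (.inl (n, b), false) (dig (n, b) d) ↔ d = δ x (n, false) := by
    intro x n b d
    have h0 := (hOm x (δ x) (hδ x)).1 n
    constructor
    · intro hd
      have h1 := (hOm x (Function.update (δ x) (n, b) d) (fun g => by
        by_cases hg : g = (n, b)
        · subst hg; simpa using hd
        · simpa [hg] using hδ x g)).1 n
      cases b
      · simpa [h0] using h1.symm
      · simpa using h1
    · rintro rfl
      cases b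
      · exact hδ x _
      · rw [← h0]; exact hδ x _
  have hN : ∀ x n b, δ (x - P.Nn (n, b) • dir (p := p) (.inl (n, b))) (n, false) = δ x (n, false) := by
    intro x n b
    rw [← hU x n b]
    have := (hU (x - P.Nn (n, b) • dir (p := p) (.inl (n, b))) n b _).2 rfl
    intro hc
    apply this
    intro y
    have e1 := h.per (n, b) (x, y)
    have e2 := h.per (n, b) (x, y - sg P.q (dig (n, b)
      (δ (x - P.Nn (n, b) • dir (p := p) (.inl (n, b))) (n, false))))
    simp only [Prod.mk_sub_mk, sub_zero] at e1 e2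
    rw [e1, e2, hc]
  have h1 : ∀ (n : Fin (p ^ 2)) x, δ (x - (((n : ℕ) : ℤ), -1)) (n, false) = δ x (n, false) := by
    intro n x
    rw [← hN x n true, ← hN (x - (((n : ℕ) : ℤ), -1)) n false]
    congr 1
    simp only [Nn, dir]
    ext <;> simp <;> ring
  have h2 : ∀ (n : Fin (p ^ 2)) (t : ℤ) x,
      δ (x - t • (((n : ℕ) : ℤ), -1)) (n, false) = δ x (n, false) := by
    intro n t
    induction t using Int.induction_on with
    | zero => simp
    | succ t ih => intro x; rw [add_smul, one_smul, ← sub_sub, h1, ih]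
    | pred t ih =>
      intro x
      rw [← h1 n, ← ih x]; congr 1
      ext <;> simp <;> ring
  have hWK : ∀ x y, W s D (box P.q) (x + ((K : ℤ), 0), y) = W s D (box P.q) (x, y) := by
    have a1 : ∀ x y, red P.q y = s x → red P.q y = s (x + ((K : ℤ), 0)) ∧
        D x y = D (x + ((K : ℤ), 0)) y := by
      intro x y hy
      simpa [Aset] using hper (x, y, D x y) ⟨hy, rfl⟩
    have a2 : ∀ x, s (x + ((K : ℤ), 0)) = s x := by
      intro x
      obtain ⟨y, hy⟩ := exists_red (s x)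
      rw [← (a1 x y hy).1, hy]
    intro x y
    have m1 := (match_box (s := s) (x, y) _).2 rfl
    have m2 := (match_box (s := s) (x + ((K : ℤ), 0), y) _).2 rfl
    rw [W_eq sel_box m1, W_eq sel_box m2]
    simp only [Match, Prod.fst_sub, off_box_fst, sub_zero, a2] at m1 ⊢
    exact (a1 x _ m1).2.symm
  refine sudoku_aperiodic hp (fun n m => ext (δ (m, 0)) n) (fun i j => ?_) (fun n hn => ?_) K hK ?_
  · refine (hOm (i, j) _ (hδ _)).2.congr fun n hn => ?_
    simp only [ext, dif_pos hn]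
    rw [← h2 ⟨n, hn⟩ (-j) (i, j)]
    congr 1
    ext <;> simp; ring
  · have hC : ∀ k : CG, ∃ i : ℤ, P.PP k (δ (i, 0)) := by
      intro k
      obtain ⟨x, hx, hd⟩ := forceC (h.sel0 (.inr k)) kap (P.e (.inl kap) • (1, 0))
        (by simp [μ0]) (by simp [μ0]) (h.sel1 (.inr k)) (star (.inr k))
        ((.inr k, false) : Dat p) ((.inr k, true) : Dat p)
        (P.e (.inr (.inr k, false)) • dir (p := p) (.inr k))
        (P.e (.inr (.inr k, true)) • dir (p := p) (.inr k)) (AddMonoidHom.snd ℤ ℤ).ker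
        (fun c => by
          rw [AddMonoidHom.mem_ker]; simp only [μ0]; split_ifs <;> simp [dir])
        (by rw [AddMonoidHom.mem_ker]; simp) (by rw [AddMonoidHom.mem_ker]; simp [dir])
        (P.cop _ _) (P.cop _ _) (fun x => h.ind _ kap (by simp) x) (h.i1 (.inr k))
        (h.i2 (.inr k)) (hcl (.inr k))
      obtain ⟨i, j⟩ := x
      have : j = 0 := by rw [AddMonoidHom.mem_ker] at hx; simpa using hx
      subst this
      refine ⟨i, ?_⟩
      by_contra hc
      obtain ⟨j, hj⟩ := lit_clause (s := s) (D := D) own (gdO k) (gdO_inj k)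
        (fun j => (gdO k j, false)) (lbO k (δ (i, 0))) (i, 0)
        (fun j c hc => h.ind _ c hc _) (h.pk k _ hc (i, 0))
      cases j with
      | none => exact hj hd
      | some g => exact hj (hδ _ g)
    obtain ⟨i, hi⟩ := hC (decide (n = 1), true)
    obtain ⟨i', hi'⟩ := hC (decide (n = 1), false)
    have e : (decide (n = 1)).toNat = n := by
      rcases Nat.le_one_iff_eq_zero_or_eq_one.1 hn with rfl | rfl <;> simp
    refine ⟨i, i', fun hc => ?_⟩
    simp only [PP, e] at hi hi' hc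
    rw [hc] at hi
    simp [hi.2] at hi'
  · intro n hn m
    simp only [ext, dif_pos hn]
    rw [← hU (m, 0) _ false]
    have := hδ (m + K, 0) (⟨n, hn⟩, false)
    have e : ((m + K, 0) : X) = (m, 0) + ((K : ℤ), 0) := by simp
    simp only [Dep, e, hWK] at this ⊢
    exact this

end Par

end Crest.Agent.R46
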